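import Vale.Agent.P126.Dis.BodiesPrimal

/-! Module F2: the upper bound for the dual covering number. -/

open scoped Pointwise RealInnerProductSpace

namespace Vale.Agent.P126.Dis

open Vale.Agent.P126

lemma inner_eq_sum {n : ℕ} (x y : EuclideanSpace ℝ (Fin n)) : ⟪x, y⟫ = ∑ i, x i * y i := by
  simp only [PiLp.inner_apply, RCLike.inner_apply, conj_trivial]
  exact Finset.sum_congr rfl fun i _ => mul_comm _ _

/-- Points of the polar of the cube have `ℓ₁` norm at most `3`. -/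
lemma sum_abs_le_three {n : ℕ} {y : EuclideanSpace ℝ (Fin n)} (hy : y ∈ polarBody (cube n)) :
    ∑ i, |y i| ≤ 3 := by
  have h1 : (WithLp.toLp 2 fun i => (1 / 3 : ℝ) * (SignType.sign (y i) : ℝ) :
      EuclideanSpace ℝ (Fin n)) ∈ cube n := by
    intro i
    simp only
    rw [abs_mul, abs_of_pos (by norm_num : (0 : ℝ) < 1 / 3)]
    have h2 : |(SignType.sign (y i) : ℝ)| ≤ 1 := by
      rcases lt_trichotomy (y i) 0 with h | h | h
      · rw [sign_neg h]; simp
      · rw [h, sign_zero]; simp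
      · rw [sign_pos h]; simp
    linarith
  have h2 := hy _ h1
  rw [inner_eq_sum] at h2
  have h3 : ∑ i, (1 / 3 : ℝ) * (SignType.sign (y i) : ℝ) * y i = 1 / 3 * ∑ i, |y i| := by
    rw [Finset.mul_sum]
    refine Finset.sum_congr rfl fun i _ => ?_
    rw [mul_assoc, sign_mul_self]
  have h4 : 1 / 3 * ∑ i, |y i| ≤ 1 := by
    rw [← h3]
    exact h2
  linarith

lemma norm_le_sum_abs {n : ℕ} (y : EuclideanSpace ℝ (Fin n)) : ‖y‖ ≤ ∑ i, |y i| := by
  rw [EuclideanSpace.norm_eq]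
  refine Real.sqrt_le_iff.2 ⟨Finset.sum_nonneg fun i _ => abs_nonneg _, ?_⟩
  have h1 : ∀ i, ‖y i‖ ^ 2 ≤ |y i| * ∑ k, |y k| := by
    intro i
    rw [Real.norm_eq_abs, pow_two]
    exact mul_le_mul_of_nonneg_left
      (Finset.single_le_sum (f := fun k => |y k|) (fun k _ => abs_nonneg _) (Finset.mem_univ i))
      (abs_nonneg _)
  calc ∑ i, ‖y i‖ ^ 2 ≤ ∑ i, |y i| * ∑ k, |y k| := Finset.sum_le_sum fun i _ => h1 i
    _ = (∑ i, |y i|) ^ 2 := by rw [← Finset.sum_mul, pow_two]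

/-- Each point of the polar of the cube has a code in `S × S`. -/
lemma exists_code_dual {n : ℕ} {ζ : Type} (F : Fin n → ζ → ℝ) (η : ℝ)
    (S : Finset (ζ → ℝ)) (hS : ∀ w : Fin n → ℝ, (∀ t, 0 ≤ w t) → ∑ t, w t ≤ 1 →
      ∃ f ∈ S, ∀ z, |∑ t, w t * F t z - f z| ≤ η) (y : EuclideanSpace ℝ (Fin n))
    (hy : ∑ i, |y i| ≤ 3) :
    ∃ c ∈ S ×ˢ S, ∀ z, |∑ i, y i * F i z - 3 * (c.1 z - c.2 z)| ≤ 6 * η := by
  have hp : ∑ i, max (y i) 0 / 3 ≤ 1 := by
    rw [← Finset.sum_div]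
    have : ∑ i, max (y i) 0 ≤ ∑ i, |y i| :=
      Finset.sum_le_sum fun i _ => max_le (le_abs_self _) (abs_nonneg _)
    linarith
  have hn : ∑ i, max (-y i) 0 / 3 ≤ 1 := by
    rw [← Finset.sum_div]
    have : ∑ i, max (-y i) 0 ≤ ∑ i, |y i| :=
      Finset.sum_le_sum fun i _ => max_le (neg_le_abs _) (abs_nonneg _)
    linarith
  obtain ⟨f, hf, hf2⟩ := hS (fun i => max (y i) 0 / 3)
    (fun i => div_nonneg (le_max_right _ _) (by norm_num)) hp
  obtain ⟨g, hg, hg2⟩ := hS (fun i => max (-y i) 0 / 3)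
    (fun i => div_nonneg (le_max_right _ _) (by norm_num)) hn
  refine ⟨(f, g), Finset.mem_product.2 ⟨hf, hg⟩, fun z => ?_⟩
  have h1 := abs_le.1 (hf2 z)
  have h2 := abs_le.1 (hg2 z)
  have h3 : ∑ i, y i * F i z =
      3 * (∑ i, max (y i) 0 / 3 * F i z - ∑ i, max (-y i) 0 / 3 * F i z) := by
    rw [← Finset.sum_sub_distrib, Finset.mul_sum]
    refine Finset.sum_congr rfl fun i _ => ?_
    have h4 : y i = max (y i) 0 - max (-y i) 0 := by
      rcases le_total (y i) 0 with h | h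
      · rw [max_eq_right h, max_eq_left (by linarith)]; ring
      · rw [max_eq_left h, max_eq_right (by linarith)]; ring
    calc y i * F i z = (max (y i) 0 - max (-y i) 0) * F i z := by rw [← h4]
      _ = 3 * (max (y i) 0 / 3 * F i z - max (-y i) 0 / 3 * F i z) := by ring
  rw [h3]
  simp only
  rw [abs_le]
  constructor <;> linarith [h1.1, h1.2, h2.1, h2.2]

lemma cover_dual {n : ℕ} {ζ : Type} (F : Fin n → ζ → ℝ) (a : ℝ) (ha : 1 ≤ a)
    (S : Finset (ζ → ℝ)) (hS : ∀ w : Fin n → ℝ, (∀ t, 0 ≤ w t) → ∑ t, w t ≤ 1 →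
      ∃ f ∈ S, ∀ z, |∑ t, w t * F t z - f z| ≤ 1 / (12 * a)) :
    coverNum (polarBody (cube n)) (a⁻¹ • polarBody (polarBody (dualBody F (6 * a)))) ≤
      S.card ^ 2 := by
  classical
  have ha0 : 0 < a := by linarith
  have hcode : ∀ y : EuclideanSpace ℝ (Fin n), ∃ c, y ∈ polarBody (cube n) → c ∈ S ×ˢ S ∧
      ∀ z, |∑ i, y i * F i z - 3 * (c.1 z - c.2 z)| ≤ 6 * (1 / (12 * a)) := by
    intro y
    by_cases hy : y ∈ polarBody (cube n)
    · obtain ⟨c, hc, hc2⟩ := exists_code_dual F _ S hS y (sum_abs_le_three hy)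
      exact ⟨c, fun _ => ⟨hc, hc2⟩⟩
    · exact ⟨(0, 0), fun h => absurd h hy⟩
  choose c hc using hcode
  have hrep : ∀ p : (ζ → ℝ) × (ζ → ℝ), ∃ y : EuclideanSpace ℝ (Fin n),
      (∃ y' ∈ polarBody (cube n), c y' = p) → y ∈ polarBody (cube n) ∧ c y = p := by
    intro p
    by_cases hp : ∃ y' ∈ polarBody (cube n), c y' = p
    · obtain ⟨y', h1, h2⟩ := hp
      exact ⟨y', fun _ => ⟨h1, h2⟩⟩
    · exact ⟨0, fun h => absurd h hp⟩
  choose r hr using hrep
  refine coverNum_le (Cov.of_forall ((S ×ˢ S).image r) ?_ ?_)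
  · refine Finset.card_image_le.trans ?_
    rw [Finset.card_product, pow_two]
  · intro y hy
    obtain ⟨h1, h2⟩ := hc y hy
    obtain ⟨h3, h4⟩ := hr (c y) ⟨y, hy, rfl⟩
    refine ⟨r (c y), Finset.mem_image.2 ⟨c y, h1, rfl⟩, ?_⟩
    obtain ⟨h5, h6⟩ := hc (r (c y)) h3
    rw [h4] at h6
    refine ⟨a • (y - r (c y)), ?_, by
      simp only; rw [smul_smul, inv_mul_cancel₀ ha0.ne', one_smul]⟩
    have hmem : a • (y - r (c y)) ∈ dualBody F (6 * a) := by
      refine ⟨fun z => ?_, ?_⟩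
      · have h7 : ∑ i, (a • (y - r (c y))) i * F i z =
            a * (∑ i, y i * F i z - ∑ i, (r (c y)) i * F i z) := by
          rw [← Finset.sum_sub_distrib, Finset.mul_sum]
          refine Finset.sum_congr rfl fun i _ => ?_
          simp only [PiLp.sub_apply, PiLp.smul_apply, smul_eq_mul]
          ring
        have h8 := abs_le.1 (h2 z)
        have h9 := abs_le.1 (h6 z)
        have h10 : |∑ i, y i * F i z - ∑ i, (r (c y)) i * F i z| ≤ 1 / a := by
          have h11 : 6 * (1 / (12 * a)) + 6 * (1 / (12 * a)) = 1 / a := by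
            field_simp; norm_num
          rw [abs_le]
          constructor <;> linarith [h8.1, h8.2, h9.1, h9.2]
        rw [h7, abs_mul, abs_of_pos ha0]
        calc a * |∑ i, y i * F i z - ∑ i, (r (c y)) i * F i z| ≤ a * (1 / a) :=
              mul_le_mul_of_nonneg_left h10 ha0.le
          _ = 1 := by field_simp
      · rw [norm_smul, Real.norm_of_nonneg ha0.le]
        have h7 : ‖y - r (c y)‖ ≤ 6 := by
          calc ‖y - r (c y)‖ ≤ ‖y‖ + ‖r (c y)‖ := norm_sub_le _ _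
            _ ≤ 3 + 3 := add_le_add
                ((norm_le_sum_abs y).trans (sum_abs_le_three hy))
                ((norm_le_sum_abs _).trans (sum_abs_le_three h3))
            _ = 6 := by norm_num
        calc a * ‖y - r (c y)‖ ≤ a * 6 := mul_le_mul_of_nonneg_left h7 ha0.le
          _ = 6 * a := mul_comm _ _
    intro x hx
    have := hx _ hmem
    rwa [real_inner_comm] at this

end Vale.Agent.P126.Dis
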