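import Vale.Agent.P126.Defs
import Vale.Agent.P126.Dis.BodiesDual

/-! Module F: from a matrix `F` to convex bodies. -/

open scoped Pointwise RealInnerProductSpace

namespace Vale.Agent.P126.Dis

open Vale.Agent.P126

/-- `L` is the cube of radius `1/3`, `K` the polar of
`{y | |∑ y t * F t z| ≤ 1 for all z, ‖y‖ ≤ R}` with `R` large. -/
lemma exists_bodies {ρ ζ : Type} [Fintype ρ] [Nonempty ρ] [Fintype ζ] (F : ρ → ζ → ℝ)
    (hF : ∀ t z, |F t z| ≤ 1) (a : ℝ) (ha : 1 ≤ a) (S : Finset (ζ → ℝ)) (B : ℕ)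
    (hS : ∀ w : ρ → ℝ, (∀ t, 0 ≤ w t) → ∑ t, w t ≤ 1 →
      ∃ f ∈ S, ∀ z, |∑ t, w t * F t z - f z| ≤ 1 / (12 * a))
    (hB : ∀ z : ζ, (open Classical in
      (Finset.univ.filter fun z' : ζ => ∀ t, |F t z - F t z'| < 1).card) ≤ B) :
    ∃ K L : Set (EuclideanSpace ℝ (Fin (Fintype.card ρ))), IsSymBody K ∧ IsSymBody L ∧
      Fintype.card ζ ≤ coverNum K L * B ∧
      coverNum (polarBody L) (a⁻¹ • polarBody K) ≤ S.card ^ 2 := by
  classical
  let e : ρ ≃ Fin (Fintype.card ρ) := Fintype.equivFin ρ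
  let F' : Fin (Fintype.card ρ) → ζ → ℝ := fun i => F (e.symm i)
  have hF' : ∀ i z, |F' i z| ≤ 1 := fun i z => hF _ z
  have hR : 0 < 6 * a := by linarith
  refine ⟨polarBody (dualBody F' (6 * a)), cube _, (isSymBody_dualBody F' hF' _ hR).polar,
    isSymBody_cube _, primal_bound F' _ hR hF' B (fun z => ?_), cover_dual F' a ha S ?_⟩
  · refine le_trans (Finset.card_le_card ?_) (hB z)
    intro z' hz'
    rw [Finset.mem_filter] at hz' ⊢
    refine ⟨Finset.mem_univ _, fun t => ?_⟩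
    have := hz'.2 (e t)
    simpa [F'] using this
  · intro w hw hw1
    obtain ⟨f, hf, hf2⟩ := hS (fun t => w (e t)) (fun t => hw _) (by
      rw [Equiv.sum_comp e w]; exact hw1)
    refine ⟨f, hf, fun z => ?_⟩
    have h1 : ∑ t, w (e t) * F t z = ∑ i, w i * F' i z := by
      rw [← Equiv.sum_comp e (fun i => w i * F' i z)]
      refine Finset.sum_congr rfl fun t _ => ?_
      simp [F']
    rw [← h1]
    exact hf2 z

end Vale.Agent.P126.Dis
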