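import Vale.Agent.P126.Polar

/-! Module F1: the bodies and the lower bound for `coverNum K L`. -/

open scoped Pointwise RealInnerProductSpace

namespace Vale.Agent.P126.Dis

open Vale.Agent.P126

/-- The cube of radius `1/3`. -/
def cube (n : ℕ) : Set (EuclideanSpace ℝ (Fin n)) := {x | ∀ i, |x i| ≤ 1 / 3}

/-- The (bounded) set of functionals of size at most one on all columns. -/
def dualBody {n : ℕ} {ζ : Type} (F : Fin n → ζ → ℝ) (R : ℝ) : Set (EuclideanSpace ℝ (Fin n)) :=
  {y | (∀ z, |∑ i, y i * F i z| ≤ 1) ∧ ‖y‖ ≤ R}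

lemma abs_coord_le_norm {n : ℕ} (x : EuclideanSpace ℝ (Fin n)) (i : Fin n) : |x i| ≤ ‖x‖ := by
  rw [← Real.norm_eq_abs]
  exact PiLp.norm_apply_le x i

lemma isSymBody_cube (n : ℕ) : IsSymBody (cube n) := by
  have hclosed : IsClosed (cube n) := by
    have : cube n = ⋂ i, {x : EuclideanSpace ℝ (Fin n) | |x i| ≤ 1 / 3} := by
      ext x; simp [cube]
    rw [this]
    exact isClosed_iInter fun i => isClosed_le (by fun_prop) continuous_const
  refine ⟨?_, ?_, ?_, ?_⟩
  · intro x hx y hy c d hc hd hcd i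
    have h1 := abs_le.1 (hx i)
    have h2 := abs_le.1 (hy i)
    simp only [PiLp.add_apply, PiLp.smul_apply, smul_eq_mul]
    rw [abs_le]
    constructor <;> nlinarith [h1.1, h1.2, h2.1, h2.2]
  · rw [Metric.isCompact_iff_isClosed_bounded]
    refine ⟨hclosed, ?_⟩
    rw [isBounded_iff_forall_norm_le]
    refine ⟨Real.sqrt (∑ _i : Fin n, (1 / 3 : ℝ) ^ 2), fun x hx => ?_⟩
    rw [EuclideanSpace.norm_eq]
    refine Real.sqrt_le_sqrt (Finset.sum_le_sum fun i _ => ?_)
    rw [Real.norm_eq_abs]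
    exact pow_le_pow_left₀ (abs_nonneg _) (hx i) 2
  · refine ⟨0, mem_interior_iff_mem_nhds.2 (Metric.mem_nhds_iff.2 ⟨1 / 3, by norm_num, ?_⟩)⟩
    intro x hx i
    rw [Metric.mem_ball, dist_zero_right] at hx
    exact (abs_coord_le_norm x i).trans hx.le
  · intro x hx i
    simpa using hx i

lemma isSymBody_dualBody {n : ℕ} {ζ : Type} (F : Fin n → ζ → ℝ) (hF : ∀ i z, |F i z| ≤ 1)
    (R : ℝ) (hR : 0 < R) : IsSymBody (dualBody F R) := by
  have hclosed : IsClosed (dualBody F R) := by
    have : dualBody F R = (⋂ z, {y : EuclideanSpace ℝ (Fin n) | |∑ i, y i * F i z| ≤ 1}) ∩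
        {y | ‖y‖ ≤ R} := by
      ext x; simp [dualBody]
    rw [this]
    refine IsClosed.inter (isClosed_iInter fun z => isClosed_le ?_ continuous_const)
      (isClosed_le continuous_norm continuous_const)
    fun_prop
  refine ⟨?_, ?_, ?_, ?_⟩
  · rintro x ⟨hx1, hx2⟩ y ⟨hy1, hy2⟩ c d hc hd hcd
    refine ⟨fun z => ?_, ?_⟩
    · have h1 := abs_le.1 (hx1 z)
      have h2 := abs_le.1 (hy1 z)
      have h3 : ∑ i, (c • x + d • y) i * F i z =
          c * ∑ i, x i * F i z + d * ∑ i, y i * F i z := by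
        rw [Finset.mul_sum, Finset.mul_sum, ← Finset.sum_add_distrib]
        refine Finset.sum_congr rfl fun i _ => ?_
        simp only [PiLp.add_apply, PiLp.smul_apply, smul_eq_mul]
        ring
      rw [h3, abs_le]
      constructor <;> nlinarith [h1.1, h1.2, h2.1, h2.2]
    · calc ‖c • x + d • y‖ ≤ ‖c • x‖ + ‖d • y‖ := norm_add_le _ _
        _ = c * ‖x‖ + d * ‖y‖ := by
            rw [norm_smul, norm_smul, Real.norm_of_nonneg hc, Real.norm_of_nonneg hd]
        _ ≤ c * R + d * R := by gcongr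
        _ = R := by rw [← add_mul, hcd, one_mul]
  · rw [Metric.isCompact_iff_isClosed_bounded]
    refine ⟨hclosed, ?_⟩
    rw [isBounded_iff_forall_norm_le]
    exact ⟨R, fun y hy => hy.2⟩
  · refine ⟨0, mem_interior_iff_mem_nhds.2 (Metric.mem_nhds_iff.2
      ⟨min R (1 / (n + 1)), by positivity, ?_⟩)⟩
    intro y hy
    rw [Metric.mem_ball, dist_zero_right, lt_min_iff] at hy
    refine ⟨fun z => ?_, hy.1.le⟩
    calc |∑ i, y i * F i z| ≤ ∑ i, |y i * F i z| := Finset.abs_sum_le_sum_abs _ _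
      _ ≤ ∑ _i : Fin n, 1 / ((n : ℝ) + 1) := by
          refine Finset.sum_le_sum fun i _ => ?_
          rw [abs_mul]
          calc |y i| * |F i z| ≤ |y i| * 1 := mul_le_mul_of_nonneg_left (hF i z) (abs_nonneg _)
            _ = |y i| := mul_one _
            _ ≤ ‖y‖ := abs_coord_le_norm y i
            _ ≤ 1 / ((n : ℝ) + 1) := hy.2.le
      _ = n / ((n : ℝ) + 1) := by
          rw [Finset.sum_const, Finset.card_univ, Fintype.card_fin, nsmul_eq_mul]; ring
      _ ≤ 1 := by
          rw [div_le_one (by positivity)]; linarith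
  · rintro y ⟨hy1, hy2⟩
    refine ⟨fun z => ?_, by rwa [norm_neg]⟩
    have h1 : ∑ i, (-y) i * F i z = -∑ i, y i * F i z := by
      rw [← Finset.sum_neg_distrib]
      refine Finset.sum_congr rfl fun i _ => ?_
      simp only [PiLp.neg_apply]
      ring
    rw [h1, abs_neg]
    exact hy1 z

/-- The columns are points of the polar of `dualBody`. -/
lemma column_mem {n : ℕ} {ζ : Type} (F : Fin n → ζ → ℝ) (R : ℝ) (z : ζ) :
    (WithLp.toLp 2 fun i => F i z : EuclideanSpace ℝ (Fin n)) ∈ polarBody (dualBody F R) := by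
  intro y hy
  have h1 := (abs_le.1 (hy.1 z)).2
  have h2 : ⟪y, (WithLp.toLp 2 fun i => F i z : EuclideanSpace ℝ (Fin n))⟫ =
      ∑ i, y i * F i z := by
    simp only [PiLp.inner_apply, RCLike.inner_apply, conj_trivial]
    exact Finset.sum_congr rfl fun i _ => mul_comm _ _
  rw [h2]
  exact h1

/-- Lower bound for the number of cubes. -/
lemma primal_bound {n : ℕ} {ζ : Type} [Fintype ζ] (F : Fin n → ζ → ℝ)
    (R : ℝ) (hR : 0 < R) (hF : ∀ i z, |F i z| ≤ 1) (B : ℕ)
    (hB : ∀ z : ζ, (open Classical in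
      (Finset.univ.filter fun z' : ζ => ∀ t, |F t z - F t z'| < 1).card) ≤ B) :
    Fintype.card ζ ≤ coverNum (polarBody (dualBody F R)) (cube n) * B := by
  classical
  obtain ⟨m, hm⟩ : ∃ m, Cov (polarBody (dualBody F R)) (cube n) m :=
    exists_cov (isSymBody_dualBody F hF R hR).polar.compact (isSymBody_cube n).nonempty_interior
  obtain ⟨t, ht, hc⟩ := (cov_coverNum hm).exists_mem
  have hc' : ∀ z : ζ, ∃ x ∈ t,
      (WithLp.toLp 2 fun i => F i z : EuclideanSpace ℝ (Fin n)) - x ∈ cube n :=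
    fun z => hc _ (column_mem F R z)
  choose c hct hcc using hc'
  have h1 : Fintype.card ζ ≤ t.card * B := by
    rw [← Finset.card_univ]
    refine Finset.card_le_mul_card_image_of_maps_to (f := c) (fun z _ => hct z) B ?_ |>.trans ?_
    · intro x hx
      rcases (Finset.univ.filter fun z => c z = x).eq_empty_or_nonempty with h0 | ⟨z, hz⟩
      · rw [h0]; simp
      · refine le_trans (Finset.card_le_card ?_) (hB z)
        intro z' hz'
        rw [Finset.mem_filter] at hz hz' ⊢
        refine ⟨Finset.mem_univ _, fun i => ?_⟩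
        have h2 := hcc z i
        have h3 := hcc z' i
        rw [hz.2] at h2
        rw [hz'.2] at h3
        simp only [PiLp.sub_apply] at h2 h3
        have h4 := abs_le.1 h2
        have h5 := abs_le.1 h3
        rw [abs_lt]
        constructor <;> linarith [h4.1, h4.2, h5.1, h5.2]
    · rw [mul_comm]
  exact h1.trans (Nat.mul_le_mul_right _ ht)

end Vale.Agent.P126.Dis
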