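import Vale.Agent.P126.Dis.Defs
import Vale.Agent.P126.Hitting

/-! Module B: a small set `T` of digits which works for most rows. -/

namespace Vale.Agent.P126.Dis

variable {I : ℕ} {s : Fin I → ℕ}

lemma theta_pos (j : ℕ) : 0 < theta j := by
  unfold theta
  positivity

lemma theta_le_one (j : ℕ) : theta j ≤ 1 := by
  unfold theta
  exact pow_le_one₀ (by norm_num) (by norm_num)

lemma theta_succ (j : ℕ) : theta (j + 1) = theta j / 2 := by
  unfold theta
  rw [pow_succ]
  ring

lemma mem_cyl {j : ℕ} {m m' : Leaf I s} :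
    m' ∈ cyl j m ↔ ∀ i : Fin I, (i : ℕ) < j → m' i = m i := by
  simp [cyl]

/-- The size of a cylinder depends only on its depth. -/
lemma card_cyl_eq (j : ℕ) (m : Leaf I s) :
    (cyl j m).card = ∏ i : Fin I, if (i : ℕ) < j then 1 else s i := by
  have e : cyl j m = Fintype.piFinset fun i : Fin I =>
      if (i : ℕ) < j then {m i} else Finset.univ := by
    ext m'
    rw [mem_cyl, Fintype.mem_piFinset]
    refine forall_congr' fun i => ?_
    by_cases hi : (i : ℕ) < j <;> simp [hi]
  rw [e, Fintype.card_piFinset]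
  refine Finset.prod_congr rfl fun i _ => ?_
  by_cases hi : (i : ℕ) < j <;> simp [hi]

lemma card_cyl_pos' (j : ℕ) (m : Leaf I s) : 0 < (cyl j m).card :=
  Finset.card_pos.2 ⟨m, mem_cyl.2 fun _ _ => rfl⟩

/-- The child of the depth `j` node of `m` with digit `b`. -/
lemma cyl_update (j : Fin I) (m : Leaf I s) (b : Fin (s j)) :
    cyl ((j : ℕ) + 1) (Function.update m j b) =
      (cyl (j : ℕ) m).filter fun m' => m' j = b := by
  ext m'
  rw [mem_cyl, Finset.mem_filter, mem_cyl]
  constructor
  · intro h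
    refine ⟨fun i hi => ?_, ?_⟩
    · have hne : i ≠ j := by
        rintro rfl
        exact absurd hi (lt_irrefl _)
      have := h i (by omega)
      rwa [Function.update_of_ne hne] at this
    · have := h j (by omega)
      rwa [Function.update_self] at this
  · rintro ⟨h1, h2⟩ i hi
    by_cases hij : i = j
    · subst hij
      rw [Function.update_self]
      exact h2
    · rw [Function.update_of_ne hij]
      refine h1 i ?_
      have : (i : ℕ) ≠ (j : ℕ) := fun h => hij (Fin.ext h)
      omega

open Classical in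
/-- At least a `theta j / 2` fraction of the children of a dense node are dense. -/
lemma dense_children (_hs : ∀ i, 0 < s i) (j : Fin I) (W : Finset (Leaf I s)) (m : Leaf I s)
    (hm : Dns W j m) :
    theta j / 2 * (s j : ℝ) ≤
      ((Finset.univ.filter fun b : Fin (s j) =>
        ∃ m' ∈ cyl (j : ℕ) m, m' j = b ∧ Dns W (j + 1) m').card : ℝ) := by
  set g := Finset.univ.filter fun b : Fin (s j) =>
    ∃ m' ∈ cyl (j : ℕ) m, m' j = b ∧ Dns W (j + 1) m' with hg
  set c : ℝ := ((cyl ((j : ℕ) + 1) m).card : ℝ) with hc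
  have hc0 : 0 < c := by
    rw [hc]
    exact_mod_cast card_cyl_pos' _ _
  have hcb : ∀ b : Fin (s j), ((cyl ((j : ℕ) + 1) (Function.update m j b)).card : ℝ) = c := by
    intro b
    rw [hc, card_cyl_eq, card_cyl_eq]
  have hsum : ((cyl (j : ℕ) m).card : ℝ) = s j * c := by
    have e : (cyl (j : ℕ) m).card = ∑ b : Fin (s j),
        ((cyl (j : ℕ) m).filter fun m' => m' j = b).card :=
      Finset.card_eq_sum_card_fiberwise fun _ _ => Finset.mem_coe.2 (Finset.mem_univ _)
    rw [e]
    push_cast
    have : ∀ b : Fin (s j), (((cyl (j : ℕ) m).filter fun m' => m' j = b).card : ℝ) = c := by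
      intro b
      rw [← cyl_update]
      exact hcb b
    rw [Finset.sum_congr rfl fun b _ => this b]
    simp
  have hW : ((W ∩ cyl (j : ℕ) m).card : ℝ) = ∑ b : Fin (s j),
      ((W ∩ cyl ((j : ℕ) + 1) (Function.update m j b)).card : ℝ) := by
    have e : (W ∩ cyl (j : ℕ) m).card = ∑ b : Fin (s j),
        ((W ∩ cyl (j : ℕ) m).filter fun m' => m' j = b).card :=
      Finset.card_eq_sum_card_fiberwise fun _ _ => Finset.mem_coe.2 (Finset.mem_univ _)
    rw [e]
    push_cast
    refine Finset.sum_congr rfl fun b _ => ?_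
    rw [cyl_update, Finset.inter_filter]
  have hle : ∀ b : Fin (s j), ((W ∩ cyl ((j : ℕ) + 1) (Function.update m j b)).card : ℝ) ≤
      (if b ∈ g then c else 0) + theta j / 2 * c := by
    intro b
    by_cases hb : b ∈ g
    · rw [if_pos hb]
      have h1 : ((W ∩ cyl ((j : ℕ) + 1) (Function.update m j b)).card : ℝ) ≤
          ((cyl ((j : ℕ) + 1) (Function.update m j b)).card : ℝ) := by
        exact_mod_cast Finset.card_le_card Finset.inter_subset_right
      rw [hcb] at h1
      have := theta_pos j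
      have h2 : 0 ≤ theta j / 2 * c := by positivity
      linarith
    · rw [if_neg hb, zero_add]
      have h1 : ¬ Dns W ((j : ℕ) + 1) (Function.update m j b) := by
        intro h
        apply hb
        rw [hg, Finset.mem_filter]
        refine ⟨Finset.mem_univ _, Function.update m j b, ?_, Function.update_self .., h⟩
        rw [mem_cyl]
        intro i hi
        rw [Function.update_of_ne]
        rintro rfl
        exact absurd hi (lt_irrefl _)
      unfold Dns at h1
      rw [not_le, theta_succ, hcb] at h1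
      exact h1.le
  have h2 := Finset.sum_le_sum fun b (_ : b ∈ Finset.univ) => hle b
  rw [← hW, Finset.sum_add_distrib, Finset.sum_const, Finset.card_univ, Fintype.card_fin,
    nsmul_eq_mul, ← Finset.sum_filter, Finset.filter_mem_eq_inter, Finset.univ_inter,
    Finset.sum_const, nsmul_eq_mul] at h2
  have h3 : theta j * ((cyl (j : ℕ) m).card : ℝ) ≤ ((W ∩ cyl (j : ℕ) m).card : ℝ) := hm
  rw [hsum] at h3
  have h4 : (theta j / 2 * (s j : ℝ)) * c ≤ (g.card : ℝ) * c := by nlinarith
  exact le_of_mul_le_mul_right h4 hc0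

lemma exists_T (hs : ∀ i, 0 < s i) (j : Fin I) (N l : ℕ) (hN : (nodes I s j).card ≤ N) (δ : ℝ)
    (hδ : (N : ℝ) * (1 - theta j / 2) ^ l ≤ δ) {ρ : Type} [Fintype ρ] (w : ρ → ℝ)
    (hw : ∀ t, 0 ≤ w t) (hw1 : ∑ t, w t ≤ 1) (Wt : ρ → Finset (Leaf I s)) :
    ∃ T : Finset (Fin (s j)), T.card ≤ l ∧
      (open Classical in ∑ t with ¬ Works j T (Wt t), w t) ≤ δ := by
  classical
  have : Nonempty (Fin (s j)) := ⟨⟨0, hs j⟩⟩
  have ht0 := theta_pos j
  have ht1 := theta_le_one j
  obtain ⟨τ, hτ⟩ := exists_hitting (Lam := ρ) (N := {c // c ∈ nodes I s j}) (S := Fin (s j))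
    w hw (fun t c => ∃ m, cyl (j : ℕ) m = c.1 ∧ Dns (Wt t) j m)
    (fun t c => Finset.univ.filter fun b : Fin (s j) =>
        ∃ m' ∈ c.1, m' j = b ∧ Dns (Wt t) (j + 1) m') (theta j / 2) (by linarith)
    (by
      rintro t ⟨c, hc⟩ ⟨m, rfl, hm⟩
      rw [Fintype.card_fin]
      exact dense_children hs j (Wt t) m hm) l
  refine ⟨Finset.univ.image τ, ?_, ?_⟩
  · refine Finset.card_image_le.trans ?_
    simp
  · have h := hτ (fun t => ¬ Works j (Finset.univ.image τ) (Wt t)) (Classical.decPred _) ?_
    · refine le_trans (le_of_eq ?_) (h.trans (le_trans ?_ hδ))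
      · refine Finset.sum_congr ?_ fun _ _ => rfl
        ext t
        simp only [Finset.mem_filter]
      · have e1 : ((Fintype.card {c // c ∈ nodes I s j} : ℕ) : ℝ) ≤ N := by
          rw [Fintype.card_coe]
          exact_mod_cast hN
        have e2 : 0 ≤ (1 - theta j / 2) ^ l := pow_nonneg (by linarith) l
        have e3 : 0 ≤ ∑ t, w t := Finset.sum_nonneg fun t _ => hw t
        calc _ ≤ (N : ℝ) * (1 - theta j / 2) ^ l * 1 :=
              mul_le_mul (mul_le_mul_of_nonneg_right e1 e2) hw1 e3 (by positivity)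
          _ = _ := mul_one _
    · intro t ht
      unfold Works at ht
      push Not at ht
      obtain ⟨m, hm, hmm⟩ := ht
      refine ⟨⟨cyl (j : ℕ) m, Finset.mem_image_of_mem _ (Finset.mem_univ _)⟩, ⟨m, rfl, hm⟩, ?_⟩
      intro i hi
      rw [Finset.mem_filter] at hi
      obtain ⟨-, m', hm', h1, h2⟩ := hi
      exact hmm m' hm' (by rw [h1]; exact Finset.mem_image_of_mem _ (Finset.mem_univ _)) h2

end Vale.Agent.P126.Dis
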