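import Mathlib

/-!
# Definitions for the disproof of the duality conjecture for metric entropy

A tree with `I` levels and branching numbers `s 0, ..., s (I-1)`; leaves are `Leaf I s`.
-/

namespace Vale.Agent.P126.Dis

/-- Leaves of the tree. -/
abbrev Leaf (I : ℕ) (s : Fin I → ℕ) : Type := ∀ i : Fin I, Fin (s i)

variable {I : ℕ} {s : Fin I → ℕ}

/-- The leaves below the depth `j` node of the leaf `m`. -/
def cyl (j : ℕ) (m : Leaf I s) : Finset (Leaf I s) :=
  Finset.univ.filter fun m' => ∀ i : Fin I, (i : ℕ) < j → m' i = m i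

/-- The depth `j` nodes, as sets of leaves. -/
def nodes (I : ℕ) (s : Fin I → ℕ) (j : ℕ) : Finset (Finset (Leaf I s)) :=
  Finset.univ.image (cyl j)

/-- The density threshold at depth `j`. -/
noncomputable def theta (j : ℕ) : ℝ := (1 / 2) ^ (j + 1)

/-- `W` is dense below the depth `j` node of `m`. -/
def Dns (W : Finset (Leaf I s)) (j : ℕ) (m : Leaf I s) : Prop :=
  theta j * ((cyl j m).card : ℝ) ≤ ((W ∩ cyl j m).card : ℝ)

/-- Some depth `j` node lies inside `E` and is densely met by `W`. -/
def Hit (E W : Finset (Leaf I s)) (j : ℕ) : Prop :=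
  ∃ m : Leaf I s, cyl j m ⊆ E ∧ Dns W j m

open Classical in
/-- The value `I - j` of the smallest `j < I` with a hit; `0` if there is none. -/
noncomputable def G (E W : Finset (Leaf I s)) : ℕ :=
  (Finset.range I).sup fun j => if Hit E W j then I - j else 0

/-- Coordinates of agreement. -/
def agr {X : Type} [DecidableEq X] (z x : Leaf I s → X) : Finset (Leaf I s) :=
  Finset.univ.filter fun m => z m = x m

/-- Rows. -/
abbrev Row (I : ℕ) (s : Fin I → ℕ) (X : Type) : Type := (Leaf I s → X) × Finset (Leaf I s)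

/-- Coordinates whose digit `j` is in `T`. -/
def cols (j : Fin I) (T : Finset (Fin (s j))) : Finset (Leaf I s) :=
  Finset.univ.filter fun m => m j ∈ T

/-- `T` works for `W` at depth `j`. -/
def Works (j : Fin I) (T : Finset (Fin (s j))) (W : Finset (Leaf I s)) : Prop :=
  ∀ m : Leaf I s, Dns W j m → ∃ m' ∈ cyl (j : ℕ) m, m' j ∈ T ∧ Dns W (j + 1) m'

open Classical in
/-- Coordinates of `x` explained by the records `R j` (used on the columns `cols j (T j)`). -/
noncomputable def expl {X : Type} (T : ∀ j : Fin I, Finset (Fin (s j)))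
    (R : Fin I → Finset (Leaf I s → X)) (x : Leaf I s → X) : Finset (Leaf I s) :=
  Finset.univ.filter fun m => ∃ j : Fin I, m j ∈ T j ∧ ∃ z ∈ R j, x m = z m

end Vale.Agent.P126.Dis
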