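import Vale.Agent.P126.Dis.Sep

/-! Module C: few records explain everything up to a small average loss. -/

namespace Vale.Agent.P126.Dis

variable {I : ℕ} {s : Fin I → ℕ}

/-- A row which is bad for a record at level `j` has a node which was not yet matched. -/
lemma new_node {X : Type} [DecidableEq X] (T : ∀ j : Fin I, Finset (Fin (s j)))
    (R : Fin I → Finset (Leaf I s → X)) (x z : Leaf I s → X) (W : Finset (Leaf I s))
    (hT : ∀ j : Fin I, (j : ℕ) + 1 < I → Works j (T j) W)
    (hloss : G (agr z x ∩ expl T R x) W + 2 ≤ G (agr z x) W) :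
    ∃ j : Fin I, (j : ℕ) + 1 < I ∧ G (agr z x) W = I - j ∧ ∃ m : Leaf I s,
      cyl (j : ℕ) m ⊆ agr z x ∧ ∀ z' ∈ R j, ¬ cyl (j : ℕ) m ⊆ agr z' x := by
  classical
  obtain ⟨j, hj, ⟨m, hm1, hm2⟩, hG⟩ := exists_level (show 0 < G (agr z x) W by omega)
  have hj1 : j + 1 < I := by omega
  refine ⟨⟨j, hj⟩, hj1, hG, m, hm1, ?_⟩
  intro z' hz' hsub
  obtain ⟨m', h1, h2, h3⟩ := hT ⟨j, hj⟩ hj1 m hm2
  have hcm : ∀ i : Fin I, (i : ℕ) < j → m' i = m i := by
    have h1' := h1
    unfold cyl at h1'
    exact (Finset.mem_filter.1 h1').2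
  have hhit : Hit (agr z x ∩ expl T R x) W (j + 1) := by
    refine ⟨m', ?_, h3⟩
    intro y hy
    have hy' : ∀ i : Fin I, (i : ℕ) < j + 1 → y i = m' i := by
      unfold cyl at hy
      exact (Finset.mem_filter.1 hy).2
    have hyc : y ∈ cyl j m := by
      unfold cyl
      rw [Finset.mem_filter]
      exact ⟨Finset.mem_univ _, fun i hi => (hy' i (by omega)).trans (hcm i hi)⟩
    rw [Finset.mem_inter]
    refine ⟨hm1 hyc, ?_⟩
    simp only [expl, Finset.mem_filter, Finset.mem_univ, true_and]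
    refine ⟨⟨j, hj⟩, ?_, z', hz', ?_⟩
    · rw [hy' ⟨j, hj⟩ (Nat.lt_succ_self j)]
      exact h2
    · have := hsub hyc
      unfold agr at this
      exact (Finset.mem_filter.1 this).2.symm
  have := le_G hj1 hhit
  omega

/-- Greedy choice of records. -/
lemma exists_records {Q : ℕ} (hI : 0 < I) (T : ∀ j : Fin I, Finset (Fin (s j)))
    (w : Row I s (Fin Q) → ℝ) (hw : ∀ t, 0 ≤ w t) (hw1 : ∑ t, w t ≤ 1)
    (hT : ∀ j : Fin I, (j : ℕ) + 1 < I →
      (open Classical in ∑ t with ¬ Works j (T j) t.2, w t) ≤ 1 / (2 * (I : ℝ) ^ 2))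
    (N : Fin I → ℕ) (hN : ∀ j : Fin I, (nodes I s j).card ≤ N j) :
    ∃ R : Fin I → Finset (Leaf I s → Fin Q), (∀ j, (R j).card ≤ N j * I ^ 2) ∧
      ∀ z : Leaf I s → Fin Q, ∑ t, w t * ((G (agr z t.1) t.2 : ℝ) -
        (G (agr z t.1 ∩ expl T R t.1) t.2 : ℝ)) ≤ 3 := by
  classical
  have hI0 : (0 : ℝ) < (I : ℝ) := by exact_mod_cast hI
  have hI2 : (0 : ℝ) < (I : ℝ) ^ 2 := by positivity
  let U : Fin I → Finset (Leaf I s → Fin Q) → Row I s (Fin Q) → Finset (Finset (Leaf I s)) :=
    fun j A t => (nodes I s j).filter (fun c => ∃ z ∈ A, c ⊆ agr z t.1)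
  let f : Fin I → Finset (Leaf I s → Fin Q) → ℝ :=
    fun j A => ∑ t, w t * ((U j A t).card : ℝ) - (A.card : ℝ) / (I : ℝ) ^ 2
  have hex : ∀ j, ∃ A, ∀ B, f j B ≤ f j A := by
    intro j
    obtain ⟨A, _, hA⟩ := Finset.exists_max_image (Finset.univ : Finset (Finset _)) (f j)
      ⟨∅, Finset.mem_univ _⟩
    exact ⟨A, fun B => hA B (Finset.mem_univ _)⟩
  choose R hR using hex
  have hUle : ∀ j A t, ((U j A t).card : ℝ) ≤ N j := by
    intro j A t
    exact_mod_cast (Finset.card_filter_le _ _).trans (hN j)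
  refine ⟨R, ?_, ?_⟩
  · intro j
    have h1 := hR j ∅
    have h2 : f j ∅ = 0 := by
      simp only [f, U]
      simp
    have h3 : ∑ t, w t * ((U j (R j) t).card : ℝ) ≤ N j := by
      calc ∑ t, w t * ((U j (R j) t).card : ℝ) ≤ ∑ t, w t * (N j : ℝ) :=
            Finset.sum_le_sum fun t _ => mul_le_mul_of_nonneg_left (hUle j _ t) (hw t)
        _ = (∑ t, w t) * (N j : ℝ) := by rw [Finset.sum_mul]
        _ ≤ 1 * (N j : ℝ) := mul_le_mul_of_nonneg_right hw1 (Nat.cast_nonneg _)
        _ = N j := one_mul _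
    rw [h2] at h1
    have h4 : ((R j).card : ℝ) / (I : ℝ) ^ 2 ≤ N j := by
      have h5 : 0 ≤ ∑ t, w t * ((U j (R j) t).card : ℝ) - ((R j).card : ℝ) / (I : ℝ) ^ 2 := h1
      linarith
    rw [div_le_iff₀ hI2] at h4
    exact_mod_cast h4
  · intro z
    -- mass of the rows for which `z` creates a new node
    let New : Fin I → Row I s (Fin Q) → Prop := fun j t =>
      ∃ m : Leaf I s, cyl (j : ℕ) m ⊆ agr z t.1 ∧ ∀ z' ∈ R j, ¬ cyl (j : ℕ) m ⊆ agr z' t.1
    have hnew : ∀ j, ∑ t, w t * (if New j t then (1 : ℝ) else 0) ≤ 1 / (I : ℝ) ^ 2 := by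
      intro j
      have h1 := hR j (insert z (R j))
      have h2 : ((insert z (R j)).card : ℝ) ≤ (R j).card + 1 := by
        exact_mod_cast Finset.card_insert_le _ _
      have h3 : ∀ t, ((U j (R j) t).card : ℝ) + (if New j t then (1 : ℝ) else 0) ≤
          ((U j (insert z (R j)) t).card : ℝ) := by
        intro t
        have hsub : U j (R j) t ⊆ U j (insert z (R j)) t := by
          intro c hc
          rw [Finset.mem_filter] at hc ⊢
          obtain ⟨h4, z', h5, h6⟩ := hc
          exact ⟨h4, z', Finset.mem_insert_of_mem h5, h6⟩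
        by_cases hn : New j t
        · rw [if_pos hn]
          obtain ⟨m, hm1, hm2⟩ := hn
          have h4 : cyl (j : ℕ) m ∈ U j (insert z (R j)) t := by
            rw [Finset.mem_filter]
            exact ⟨Finset.mem_image_of_mem _ (Finset.mem_univ _), z, Finset.mem_insert_self _ _, hm1⟩
          have h5 : cyl (j : ℕ) m ∉ U j (R j) t := by
            rw [Finset.mem_filter]
            rintro ⟨_, z', h6, h7⟩
            exact hm2 z' h6 h7
          have h6 : insert (cyl (j : ℕ) m) (U j (R j) t) ⊆ U j (insert z (R j)) t :=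
            Finset.insert_subset h4 hsub
          have h7 := Finset.card_le_card h6
          rw [Finset.card_insert_of_notMem h5] at h7
          exact_mod_cast h7
        · rw [if_neg hn, add_zero]
          exact_mod_cast Finset.card_le_card hsub
      have h4 : ∑ t, w t * ((U j (R j) t).card : ℝ) + ∑ t, w t * (if New j t then (1 : ℝ) else 0)
          ≤ ∑ t, w t * ((U j (insert z (R j)) t).card : ℝ) := by
        rw [← Finset.sum_add_distrib]
        refine Finset.sum_le_sum fun t _ => ?_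
        rw [← mul_add]
        exact mul_le_mul_of_nonneg_left (h3 t) (hw t)
      have h5 : ∑ t, w t * ((U j (insert z (R j)) t).card : ℝ) -
          ((insert z (R j)).card : ℝ) / (I : ℝ) ^ 2 ≤
          ∑ t, w t * ((U j (R j) t).card : ℝ) - ((R j).card : ℝ) / (I : ℝ) ^ 2 := h1
      have h6 : ((insert z (R j)).card : ℝ) / (I : ℝ) ^ 2 ≤
          ((R j).card : ℝ) / (I : ℝ) ^ 2 + 1 / (I : ℝ) ^ 2 := by
        rw [← add_div]
        exact div_le_div_of_nonneg_right h2 hI2.le
      linarith
    have hnw : ∀ j : Fin I, ∑ t, w t *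
        (if (j : ℕ) + 1 < I ∧ ¬ Works j (T j) t.2 then (1 : ℝ) else 0) ≤
          1 / (2 * (I : ℝ) ^ 2) := by
      intro j
      by_cases hj : (j : ℕ) + 1 < I
      · refine le_trans (le_of_eq ?_) (hT j hj)
        rw [Finset.sum_filter]
        refine Finset.sum_congr rfl fun t _ => ?_
        by_cases h1 : Works j (T j) t.2
        · rw [if_neg (fun h => h.2 h1), if_neg (fun h => h h1), mul_zero]
        · rw [if_pos ⟨hj, h1⟩, if_pos h1, mul_one]
      · have : ∀ t : Row I s (Fin Q), w t *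
            (if (j : ℕ) + 1 < I ∧ ¬ Works j (T j) t.2 then (1 : ℝ) else 0) = 0 := by
          intro t
          rw [if_neg (fun h => hj h.1), mul_zero]
        rw [Finset.sum_congr rfl fun t _ => this t, Finset.sum_const_zero]
        positivity
    -- pointwise bound of the loss
    have hpt : ∀ t : Row I s (Fin Q), (G (agr z t.1) t.2 : ℝ) -
        (G (agr z t.1 ∩ expl T R t.1) t.2 : ℝ) ≤ 1 + I * ∑ j : Fin I,
          ((if (j : ℕ) + 1 < I ∧ ¬ Works j (T j) t.2 then (1 : ℝ) else 0)
            + (if New j t then (1 : ℝ) else 0)) := by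
      intro t
      have hnn : ∀ j : Fin I, (0 : ℝ) ≤
          ((if (j : ℕ) + 1 < I ∧ ¬ Works j (T j) t.2 then (1 : ℝ) else 0)
            + (if New j t then (1 : ℝ) else 0)) := by
        intro j
        split_ifs <;> norm_num
      have hGI : (G (agr z t.1) t.2 : ℝ) ≤ I := by exact_mod_cast G_le _ _
      have hG0 : (0 : ℝ) ≤ (G (agr z t.1 ∩ expl T R t.1) t.2 : ℝ) := Nat.cast_nonneg _
      by_cases hloss : G (agr z t.1 ∩ expl T R t.1) t.2 + 2 ≤ G (agr z t.1) t.2
      · have hj : ∃ j : Fin I, (1 : ℝ) ≤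
            ((if (j : ℕ) + 1 < I ∧ ¬ Works j (T j) t.2 then (1 : ℝ) else 0)
            + (if New j t then (1 : ℝ) else 0)) := by
          by_cases hall : ∀ j : Fin I, (j : ℕ) + 1 < I → Works j (T j) t.2
          · obtain ⟨j, _, _, h3⟩ := new_node T R t.1 z t.2 hall hloss
            refine ⟨j, ?_⟩
            have h4 : New j t := h3
            rw [if_pos h4]
            split_ifs <;> norm_num
          · push Not at hall
            obtain ⟨j, h1, h2⟩ := hall
            refine ⟨j, ?_⟩
            rw [if_pos ⟨h1, h2⟩]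
            split_ifs <;> norm_num
        obtain ⟨j, hj⟩ := hj
        have h1 := Finset.single_le_sum (fun j _ => hnn j) (Finset.mem_univ j)
        have h2 : (I : ℝ) * 1 ≤ I * ∑ j : Fin I,
          ((if (j : ℕ) + 1 < I ∧ ¬ Works j (T j) t.2 then (1 : ℝ) else 0)
            + (if New j t then (1 : ℝ) else 0)) :=
          mul_le_mul_of_nonneg_left (hj.trans h1) hI0.le
        linarith
      · have h1 : G (agr z t.1) t.2 ≤ G (agr z t.1 ∩ expl T R t.1) t.2 + 1 := by omega
        have h2 : (G (agr z t.1) t.2 : ℝ) ≤ G (agr z t.1 ∩ expl T R t.1) t.2 + 1 := by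
          exact_mod_cast h1
        have h3 := mul_nonneg hI0.le (Finset.sum_nonneg fun j (_ : j ∈ Finset.univ) => hnn j)
        linarith
    calc ∑ t, w t * ((G (agr z t.1) t.2 : ℝ) - (G (agr z t.1 ∩ expl T R t.1) t.2 : ℝ))
        ≤ ∑ t, w t * (1 + I * ∑ j : Fin I,
          ((if (j : ℕ) + 1 < I ∧ ¬ Works j (T j) t.2 then (1 : ℝ) else 0)
            + (if New j t then (1 : ℝ) else 0))) :=
          Finset.sum_le_sum fun t _ => mul_le_mul_of_nonneg_left (hpt t) (hw t)
      _ = ∑ t, w t + I * ∑ j : Fin I, (∑ t, w t *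
          (if (j : ℕ) + 1 < I ∧ ¬ Works j (T j) t.2 then (1 : ℝ) else 0)
            + ∑ t, w t * (if New j t then (1 : ℝ) else 0)) := by
          have e1 : ∀ t, w t * (1 + I * ∑ j : Fin I,
              ((if (j : ℕ) + 1 < I ∧ ¬ Works j (T j) t.2 then (1 : ℝ) else 0)
                + (if New j t then (1 : ℝ) else 0))) = w t + ∑ j : Fin I, I * (w t *
              (if (j : ℕ) + 1 < I ∧ ¬ Works j (T j) t.2 then (1 : ℝ) else 0)
                + w t * (if New j t then (1 : ℝ) else 0)) := by
            intro t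
            rw [mul_add, mul_one, Finset.mul_sum, Finset.mul_sum]
            congr 1
            refine Finset.sum_congr rfl fun j _ => ?_
            ring
          rw [Finset.sum_congr rfl fun t _ => e1 t, Finset.sum_add_distrib, Finset.sum_comm,
            Finset.mul_sum]
          congr 1
          refine Finset.sum_congr rfl fun j _ => ?_
          rw [← Finset.mul_sum, Finset.sum_add_distrib]
      _ ≤ 1 + I * ∑ _j : Fin I, (1 / (2 * (I : ℝ) ^ 2) + 1 / (I : ℝ) ^ 2) := by
          refine add_le_add hw1 (mul_le_mul_of_nonneg_left ?_ hI0.le)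
          exact Finset.sum_le_sum fun j _ => add_le_add (hnw j) (hnew j)
      _ = 1 + 3 / 2 := by
          rw [Finset.sum_const, Finset.card_univ, Fintype.card_fin, nsmul_eq_mul]
          field_simp
          ring
      _ ≤ 3 := by norm_num

end Vale.Agent.P126.Dis
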