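import Vale.Agent.P126.Dis.Sep

/-! Module D: the explained parts form a set of small entropy (`Q ^ D` times a constant which
does not depend on `Q`). -/

namespace Vale.Agent.P126.Dis

variable {I : ℕ} {s : Fin I → ℕ}

/-- Indices of records. -/
abbrev Idx {I : ℕ} (K : Fin I → ℕ) : Type := Σ j : Fin I, Fin (K j)

/-- Types of rows. -/
abbrev Ty (I : ℕ) (s : Fin I → ℕ) (K : Fin I → ℕ) : Type :=
  Finset (Leaf I s) × (Leaf I s → Option (Idx K))

open Classical in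
/-- The set of explained agreements, as seen from the type. -/
noncomputable def seen {K : Fin I → ℕ} {X : Type} (y : Idx K → Leaf I s → X)
    (g : Leaf I s → Option (Idx K)) (z : Leaf I s → X) : Finset (Leaf I s) :=
  Finset.univ.filter fun m => ∃ a, g m = some a ∧ z m = y a m

/-- The approximating function. -/
noncomputable def apx {K : Fin I → ℕ} {X : Type} (y : Idx K → Leaf I s → X)
    (μ : Ty I s K → ℝ) (z : Leaf I s → X) : ℝ :=
  ∑ τ : Ty I s K, μ τ * (G (seen y τ.2 z) τ.1 : ℝ)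

/-- Each row has a type which determines the explained agreements. -/
lemma exists_type {K : Fin I → ℕ} {Q : ℕ} (T : ∀ j : Fin I, Finset (Fin (s j)))
    (R : Fin I → Finset (Leaf I s → Fin Q)) (y : Idx K → Leaf I s → Fin Q)
    (hy : ∀ j : Fin I, ∀ z ∈ R j, ∃ k : Fin (K j), ∀ m ∈ cols j (T j), y ⟨j, k⟩ m = z m)
    (x : Leaf I s → Fin Q) :
    ∃ g : Leaf I s → Option (Idx K), ∀ z, seen y g z = agr z x ∩ expl T R x := by
  classical
  have h1 : ∀ m : Leaf I s, ∃ o : Option (Idx K),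
      (m ∈ expl T R x → ∃ a, o = some a ∧ y a m = x m) ∧ (m ∉ expl T R x → o = none) := by
    intro m
    by_cases hm : m ∈ expl T R x
    · obtain ⟨j, hj, z, hz, hxz⟩ := by simpa [expl] using hm
      obtain ⟨k, hk⟩ := hy j z hz
      refine ⟨some ⟨j, k⟩, fun _ => ⟨_, rfl, ?_⟩, fun h => absurd hm h⟩
      rw [hk m (by simpa [cols] using hj), hxz]
    · exact ⟨none, fun h => absurd h hm, fun _ => rfl⟩
  choose g hg1 hg2 using h1
  refine ⟨g, fun z => ?_⟩
  ext m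
  simp only [seen, agr, Finset.mem_filter, Finset.mem_univ, true_and, Finset.mem_inter]
  constructor
  · rintro ⟨a, ha, hz⟩
    by_cases hm : m ∈ expl T R x
    · obtain ⟨a', ha', hy'⟩ := hg1 m hm
      rw [ha] at ha'
      cases ha'
      exact ⟨hz.trans hy', hm⟩
    · rw [hg2 m hm] at ha
      cases ha
  · rintro ⟨hz, hm⟩
    obtain ⟨a, ha, hy'⟩ := hg1 m hm
    exact ⟨a, ha, hz.trans hy'.symm⟩

/-- A finite net of the laws. -/
lemma exists_law_net (ι : Type) [Fintype ι] (ε : ℝ) (hε : 0 < ε) :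
    ∃ M0 : Finset (ι → ℝ), ∀ μ : ι → ℝ, (∀ i, 0 ≤ μ i) → (∀ i, μ i ≤ 1) →
      ∃ ν ∈ M0, ∀ i, |μ i - ν i| ≤ ε := by
  obtain ⟨t, ht, hc⟩ := Metric.totallyBounded_iff.1
    ((isCompact_Icc : IsCompact (Set.Icc (0 : ι → ℝ) 1)).totallyBounded) ε hε
  refine ⟨ht.toFinset, fun μ h0 h1 => ?_⟩
  have hmem : μ ∈ Set.Icc (0 : ι → ℝ) 1 := ⟨fun i => h0 i, fun i => h1 i⟩
  obtain ⟨ν, hν⟩ := Set.mem_iUnion.1 (hc hmem)
  obtain ⟨hνt, hν2⟩ := Set.mem_iUnion.1 hν
  refine ⟨ν, by simpa using hνt, fun i => ?_⟩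
  have h3 := dist_le_pi_dist μ ν i
  rw [Metric.mem_ball] at hν2
  rw [← Real.dist_eq]
  linarith

/-- Replacing the law by an element of the net changes `apx` by at most `1`. -/
lemma apx_close {K : Fin I → ℕ} {X : Type} (y : Idx K → Leaf I s → X)
    (hG : ∀ E W : Finset (Leaf I s), G E W ≤ I)
    (μ ν : Ty I s K → ℝ) (ε : ℝ) (hε : 0 ≤ ε) (h : ∀ τ, |μ τ - ν τ| ≤ ε)
    (hε1 : (Fintype.card (Ty I s K) : ℝ) * (ε * I) ≤ 1) (z : Leaf I s → X) :
    |apx y μ z - apx y ν z| ≤ 1 := by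
  unfold apx
  rw [← Finset.sum_sub_distrib]
  calc |∑ τ : Ty I s K, (μ τ * (G (seen y τ.2 z) τ.1 : ℝ) - ν τ * (G (seen y τ.2 z) τ.1 : ℝ))|
      ≤ ∑ τ : Ty I s K, |μ τ * (G (seen y τ.2 z) τ.1 : ℝ) - ν τ * (G (seen y τ.2 z) τ.1 : ℝ)| :=
        Finset.abs_sum_le_sum_abs _ _
    _ ≤ ∑ _τ : Ty I s K, ε * I := by
        refine Finset.sum_le_sum fun τ _ => ?_
        have h2 : (G (seen y τ.2 z) τ.1 : ℝ) ≤ I := by exact_mod_cast hG _ _
        have h3 : (0 : ℝ) ≤ (G (seen y τ.2 z) τ.1 : ℝ) := Nat.cast_nonneg _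
        rw [← sub_mul, abs_mul, abs_of_nonneg h3]
        exact mul_le_mul (h τ) h2 (Nat.cast_nonneg _) hε
    _ = (Fintype.card (Ty I s K) : ℝ) * (ε * I) := by
        rw [Finset.sum_const, Finset.card_univ, nsmul_eq_mul]
    _ ≤ 1 := hε1

/-- The average over rows is an `apx`. -/
lemma sum_eq_apx {K : Fin I → ℕ} {Q : ℕ} (T : ∀ j : Fin I, Finset (Fin (s j)))
    (R : Fin I → Finset (Leaf I s → Fin Q)) (y : Idx K → Leaf I s → Fin Q)
    (hy : ∀ j : Fin I, ∀ z ∈ R j, ∃ k : Fin (K j), ∀ m ∈ cols j (T j), y ⟨j, k⟩ m = z m)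
    (w : Row I s (Fin Q) → ℝ) (hw : ∀ t, 0 ≤ w t) (hw1 : ∑ t, w t ≤ 1) :
    ∃ μ : Ty I s K → ℝ, (∀ τ, 0 ≤ μ τ) ∧ (∀ τ, μ τ ≤ 1) ∧ ∀ z,
      ∑ t, w t * (G (agr z t.1 ∩ expl T R t.1) t.2 : ℝ) = apx y μ z := by
  classical
  choose g hg using exists_type T R y hy
  let τ : Row I s (Fin Q) → Ty I s K := fun t => (t.2, g t.1)
  refine ⟨fun c => ∑ t with τ t = c, w t, fun c => Finset.sum_nonneg fun t _ => hw t, fun c => ?_,
    fun z => ?_⟩
  · refine le_trans (Finset.sum_le_sum_of_subset_of_nonneg (Finset.filter_subset _ _)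
      fun t _ _ => hw t) hw1
  · unfold apx
    rw [← Finset.sum_fiberwise (s := Finset.univ) (g := τ)]
    refine Finset.sum_congr rfl fun c _ => ?_
    rw [Finset.sum_mul]
    refine Finset.sum_congr rfl fun t ht => ?_
    have hc : τ t = c := (Finset.mem_filter.1 ht).2
    rw [← hc]
    show w t * (G (agr z t.1 ∩ expl T R t.1) t.2 : ℝ) = w t * (G (seen y (g t.1) z) t.2 : ℝ)
    rw [hg]

/-- The records, restricted to their columns and extended by a default value. -/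
def fillIn {K : Fin I → ℕ} {Q : ℕ} (hQ : 0 < Q) (T : ∀ j : Fin I, Finset (Fin (s j)))
    (u : {p : Idx K × Leaf I s // p.2 ∈ cols p.1.1 (T p.1.1)} → Fin Q) :
    Idx K → Leaf I s → Fin Q :=
  fun a m => if h : m ∈ cols a.1 (T a.1) then u ⟨(a, m), h⟩ else ⟨0, hQ⟩

lemma card_support {K : Fin I → ℕ} (T : ∀ j : Fin I, Finset (Fin (s j))) :
    Fintype.card {p : Idx K × Leaf I s // p.2 ∈ cols p.1.1 (T p.1.1)} =
      ∑ j, K j * (cols j (T j)).card := by
  classical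
  rw [Fintype.card_subtype]
  have h1 : (Finset.univ.filter fun p : Idx K × Leaf I s => p.2 ∈ cols p.1.1 (T p.1.1)).card =
      ∑ a : Idx K, (cols a.1 (T a.1)).card := by
    rw [Finset.card_eq_sum_card_fiberwise (f := Prod.fst) (t := Finset.univ)
      (fun _ _ => Finset.mem_coe.2 (Finset.mem_univ _))]
    refine Finset.sum_congr rfl fun a _ => ?_
    refine Finset.card_bij' (fun p _ => p.2) (fun m _ => (a, m)) ?_ ?_ ?_ ?_
    · rintro ⟨a', m⟩ h
      simp only [Finset.mem_filter, Finset.mem_univ, true_and] at h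
      obtain ⟨h1, rfl⟩ := h
      exact h1
    · intro m h
      simp only [Finset.mem_filter, Finset.mem_univ, true_and, and_true]
      exact h
    · rintro ⟨a', m⟩ h
      simp only [Finset.mem_filter, Finset.mem_univ, true_and] at h
      obtain ⟨h1, rfl⟩ := h
      rfl
    · intro m h
      rfl
  rw [h1, Fintype.sum_sigma]
  refine Finset.sum_congr rfl fun j _ => ?_
  simp

lemma exists_fillIn {K : Fin I → ℕ} {Q : ℕ} (hQ : 0 < Q) (T : ∀ j : Fin I, Finset (Fin (s j)))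
    (R : Fin I → Finset (Leaf I s → Fin Q)) (hR : ∀ j, (R j).card ≤ K j) :
    ∃ u : {p : Idx K × Leaf I s // p.2 ∈ cols p.1.1 (T p.1.1)} → Fin Q,
      ∀ j : Fin I, ∀ z ∈ R j, ∃ k : Fin (K j), ∀ m ∈ cols j (T j),
        fillIn hQ T u ⟨j, k⟩ m = z m := by
  classical
  have he : ∀ j, ∃ e : R j ↪ Fin (K j), True := by
    intro j
    have : Fintype.card (R j) ≤ Fintype.card (Fin (K j)) := by simpa using hR j
    obtain ⟨e⟩ := Function.Embedding.nonempty_of_card_le this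
    exact ⟨e, trivial⟩
  choose e _ using he
  let zz : Idx K → Leaf I s → Fin Q := fun a =>
    Function.extend (e a.1) (fun z : R a.1 => (z : Leaf I s → Fin Q)) (fun _ _ => ⟨0, hQ⟩) a.2
  refine ⟨fun p => zz p.1.1 p.1.2, fun j z hz => ⟨e j ⟨z, hz⟩, fun m hm => ?_⟩⟩
  unfold fillIn
  rw [dif_pos hm]
  show Function.extend (e j) (fun z : R j => (z : Leaf I s → Fin Q)) (fun _ _ => ⟨0, hQ⟩)
    (e j ⟨z, hz⟩) m = z m
  rw [(e j).injective.extend_apply]

lemma exists_net (I : ℕ) (s : Fin I → ℕ) (K l : Fin I → ℕ) (D : ℕ)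
    (hD : ∀ T : ∀ j : Fin I, Finset (Fin (s j)), (∀ j, (T j).card ≤ l j) →
      ∑ j, K j * (cols j (T j)).card ≤ D) :
    ∃ C : ℕ, 0 < C ∧ ∀ Q : ℕ, 0 < Q → ∃ S : Finset ((Leaf I s → Fin Q) → ℝ),
      S.card ≤ C * Q ^ D ∧
      ∀ w : Row I s (Fin Q) → ℝ, (∀ t, 0 ≤ w t) → ∑ t, w t ≤ 1 →
        ∀ T : ∀ j : Fin I, Finset (Fin (s j)), (∀ j, (T j).card ≤ l j) →
        ∀ R : Fin I → Finset (Leaf I s → Fin Q), (∀ j, (R j).card ≤ K j) →
          ∃ f ∈ S, ∀ z : Leaf I s → Fin Q,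
            |∑ t, w t * (G (agr z t.1 ∩ expl T R t.1) t.2 : ℝ) - f z| ≤ 1 := by
  classical
  have hpos : (0 : ℝ) < (Fintype.card (Ty I s K) : ℝ) * I + 1 := by positivity
  obtain ⟨M0, hM0⟩ := exists_law_net (Ty I s K)
    (1 / ((Fintype.card (Ty I s K) : ℝ) * I + 1)) (by positivity)
  refine ⟨Fintype.card (∀ j : Fin I, Finset (Fin (s j))) * M0.card + 1, Nat.succ_pos _,
    fun Q hQ => ?_⟩
  let 𝒯 : Finset (∀ j : Fin I, Finset (Fin (s j))) :=
    Finset.univ.filter fun T => ∀ j, (T j).card ≤ l j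
  let S : Finset ((Leaf I s → Fin Q) → ℝ) := 𝒯.biUnion fun T =>
    (Finset.univ : Finset ({p : Idx K × Leaf I s // p.2 ∈ cols p.1.1 (T p.1.1)} → Fin Q)).biUnion
      fun u => M0.image fun ν => apx (fillIn hQ T u) ν
  refine ⟨S, ?_, ?_⟩
  · have h1 : S.card ≤ 𝒯.card * (Q ^ D * M0.card) := by
      refine Finset.card_biUnion_le_card_mul _ _ _ fun T hT => ?_
      have hT' : ∀ j, (T j).card ≤ l j := (Finset.mem_filter.1 hT).2
      refine le_trans (Finset.card_biUnion_le_card_mul _ _ M0.card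
        fun u _ => Finset.card_image_le) ?_
      refine Nat.mul_le_mul_right _ ?_
      rw [Finset.card_univ, Fintype.card_fun, Fintype.card_fin, card_support]
      exact Nat.pow_le_pow_right hQ (hD T hT')
    calc S.card ≤ 𝒯.card * (Q ^ D * M0.card) := h1
      _ ≤ Fintype.card (∀ j : Fin I, Finset (Fin (s j))) * (Q ^ D * M0.card) :=
          Nat.mul_le_mul_right _ (Finset.card_le_univ _)
      _ = (Fintype.card (∀ j : Fin I, Finset (Fin (s j))) * M0.card) * Q ^ D := by ring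
      _ ≤ (Fintype.card (∀ j : Fin I, Finset (Fin (s j))) * M0.card + 1) * Q ^ D :=
          Nat.mul_le_mul_right _ (Nat.le_succ _)
  · intro w hw hw1 T hT R hR
    obtain ⟨u, hu⟩ := exists_fillIn hQ T R hR
    obtain ⟨μ, hμ0, hμ1, hμ⟩ := sum_eq_apx T R (fillIn hQ T u) hu w hw hw1
    obtain ⟨ν, hν, hclose⟩ := hM0 μ hμ0 hμ1
    refine ⟨apx (fillIn hQ T u) ν, ?_, fun z => ?_⟩
    · refine Finset.mem_biUnion.2 ⟨T, Finset.mem_filter.2 ⟨Finset.mem_univ _, hT⟩, ?_⟩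
      refine Finset.mem_biUnion.2 ⟨u, Finset.mem_univ _, ?_⟩
      exact Finset.mem_image.2 ⟨ν, hν, rfl⟩
    · rw [hμ z]
      refine apx_close _ (fun E W => G_le E W) μ ν _ (by positivity) hclose ?_ z
      rw [one_div, ← mul_assoc, mul_comm ((Fintype.card (Ty I s K) : ℝ)), mul_assoc,
        inv_mul_le_iff₀ hpos]
      linarith

end Vale.Agent.P126.Dis
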