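import Vale.Agent.P126.Dis.Defs

/-! Module E: choice of the branching numbers. -/

namespace Vale.Agent.P126.Dis

lemma card_nodes_le (I : ℕ) (s : Fin I → ℕ) (j : ℕ) :
    (nodes I s j).card ≤ ∏ i : Fin I, if (i : ℕ) < j then s i else 1 := by
  classical
  -- the node of `m` depends only on the digits below `j`
  let F : (∀ i : Fin I, Fin (if (i : ℕ) < j then s i else 1)) → Finset (Leaf I s) := fun c =>
    Finset.univ.filter fun m' => ∀ (i : Fin I), (i : ℕ) < j → (m' i : ℕ) = (c i : ℕ)
  have hsub : nodes I s j ⊆ Finset.univ.image F := by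
    intro N hN
    obtain ⟨m, -, rfl⟩ := Finset.mem_image.mp hN
    refine Finset.mem_image.mpr ⟨fun i => ⟨if (i : ℕ) < j then (m i : ℕ) else 0, ?_⟩,
      Finset.mem_univ _, ?_⟩
    · split_ifs
      · exact (m i).2
      · exact Nat.one_pos
    · unfold cyl
      ext m'
      simp only [F, Finset.mem_filter, Finset.mem_univ, true_and]
      constructor
      · intro h i hi
        have := h i hi
        rw [if_pos hi] at this
        exact Fin.ext this
      · intro h i hi
        rw [if_pos hi, h i hi]
  calc (nodes I s j).card ≤ (Finset.univ.image F).card := Finset.card_le_card hsub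
    _ ≤ Fintype.card (∀ i : Fin I, Fin (if (i : ℕ) < j then s i else 1)) :=
      Finset.card_image_le.trans (le_of_eq Finset.card_univ)
    _ = ∏ i : Fin I, if (i : ℕ) < j then s i else 1 := by
      rw [Fintype.card_pi]
      exact Finset.prod_congr rfl fun i _ => Fintype.card_fin _

lemma card_cols (I : ℕ) (s : Fin I → ℕ) (j : Fin I) (T : Finset (Fin (s j))) :
    (cols j T).card * s j = T.card * Fintype.card (Leaf I s) := by
  classical
  have h1 : (cols j T) = Fintype.piFinset (fun i : Fin I =>
      if h : i = j then T.map ⟨fun a => (h ▸ a : Fin (s i)), by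
        subst h
        exact fun a b hab => hab⟩ else Finset.univ) := by
    ext m
    unfold cols
    rw [Finset.mem_filter, Fintype.mem_piFinset]
    constructor
    · rintro ⟨-, hm⟩ i
      by_cases h : i = j
      · subst h
        rw [dif_pos rfl]
        exact Finset.mem_map.mpr ⟨m i, hm, rfl⟩
      · rw [dif_neg h]
        exact Finset.mem_univ _
    · intro hm
      refine ⟨Finset.mem_univ _, ?_⟩
      have := hm j
      rw [dif_pos rfl] at this
      obtain ⟨a, ha, hab⟩ := Finset.mem_map.mp this
      have : a = m j := hab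
      rw [← this]
      exact ha
  have h2 : (cols j T).card = T.card * ∏ i ∈ Finset.univ.erase j, s i := by
    rw [h1, Fintype.card_piFinset, ← Finset.mul_prod_erase _ _ (Finset.mem_univ j)]
    congr 1
    · rw [dif_pos rfl, Finset.card_map]
    · apply Finset.prod_congr rfl
      intro i hi
      rw [dif_neg (Finset.ne_of_mem_erase hi), Finset.card_univ, Fintype.card_fin]
  have h3 : Fintype.card (Leaf I s) = s j * ∏ i ∈ Finset.univ.erase j, s i := by
    rw [Fintype.card_pi, Finset.mul_prod_erase _ (fun i => s i) (Finset.mem_univ j)]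
    exact Finset.prod_congr rfl fun i _ => Fintype.card_fin _
  rw [h2, h3]
  ring

lemma params_exists_l (I j P : ℕ) (hI : 0 < I) :
    ∃ l : ℕ, (P : ℝ) * (1 - theta j / 2) ^ l ≤ 1 / (2 * (I : ℝ) ^ 2) := by
  have hθ : 0 < theta j := by
    unfold theta
    positivity
  have hθ1 : theta j ≤ 1 := by
    unfold theta
    exact pow_le_one₀ (by norm_num) (by norm_num)
  have hε : (0 : ℝ) < 1 / (2 * (I : ℝ) ^ 2) := by
    have : (0 : ℝ) < I := by exact_mod_cast hI
    positivity
  have hlim : Filter.Tendsto (fun l : ℕ => (P : ℝ) * (1 - theta j / 2) ^ l) Filter.atTop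
      (nhds ((P : ℝ) * 0)) :=
    (tendsto_pow_atTop_nhds_zero_of_lt_one (by linarith) (by linarith)).const_mul _
  rw [mul_zero] at hlim
  exact (hlim.eventually_le_const hε).exists

lemma params_arith {I b P l c M S : ℕ} (h2 : c * S ≤ l * M)
    (h3 : 8 * (b + 1) * I * (P * I ^ 2 * l) ≤ S) (hS : 0 < S) :
    I * (8 * (b + 1) * ((P * I ^ 2) * c)) ≤ M := by
  apply Nat.le_of_mul_le_mul_right _ hS
  calc I * (8 * (b + 1) * ((P * I ^ 2) * c)) * S
      = I * (8 * (b + 1)) * (P * I ^ 2) * (c * S) := by ring
    _ ≤ I * (8 * (b + 1)) * (P * I ^ 2) * (l * M) := Nat.mul_le_mul_left _ h2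
    _ = (8 * (b + 1) * I * (P * I ^ 2 * l)) * M := by ring
    _ ≤ S * M := Nat.mul_le_mul_right _ h3
    _ = M * S := Nat.mul_comm _ _

/-- the products of the branching numbers -/
noncomputable def parP (I b : ℕ) (l : ℕ → ℕ → ℕ) : ℕ → ℕ
  | 0 => 1
  | j + 1 => parP I b l j *
      (8 * (b + 1) * I * (parP I b l j * I ^ 2 * l j (parP I b l j)) + 1)

/-- the branching numbers -/
noncomputable def parS (I b : ℕ) (l : ℕ → ℕ → ℕ) (j : ℕ) : ℕ :=
  8 * (b + 1) * I * (parP I b l j * I ^ 2 * l j (parP I b l j)) + 1

lemma parP_eq (I b : ℕ) (l : ℕ → ℕ → ℕ) (j : ℕ) :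
    parP I b l j = ∏ i ∈ Finset.range j, parS I b l i := by
  induction j with
  | zero => rfl
  | succ j ih =>
    rw [Finset.prod_range_succ, ← ih]
    rfl

lemma exists_params (I b : ℕ) (hI : 0 < I) :
    ∃ s : Fin I → ℕ, (∀ i, 0 < s i) ∧ ∃ N l : Fin I → ℕ,
      (∀ j : Fin I, (nodes I s j).card ≤ N j) ∧
      (∀ j : Fin I, (N j : ℝ) * (1 - theta j / 2) ^ (l j) ≤ 1 / (2 * (I : ℝ) ^ 2)) ∧
      ∃ D : ℕ, 8 * b * D ≤ Fintype.card (Leaf I s) ∧
        ∀ T : ∀ j : Fin I, Finset (Fin (s j)), (∀ j, (T j).card ≤ l j) →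
          ∑ j, (N j * I ^ 2) * (cols j (T j)).card ≤ D := by
  choose l hl using fun j P : ℕ => params_exists_l I j P hI
  have hpos : ∀ j : ℕ, 0 < parS I b l j := fun j => Nat.succ_pos _
  refine ⟨fun i => parS I b l i, fun i => hpos i, fun i => parP I b l i,
    fun i => l i (parP I b l i), ?_, ?_, ?_⟩
  · intro j
    refine (card_nodes_le I (fun i => parS I b l i) j).trans (le_of_eq ?_)
    rw [Fin.prod_univ_eq_prod_range (fun i => if i < (j : ℕ) then parS I b l i else 1) I,
      ← Finset.prod_filter]
    change _ = parP I b l j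
    rw [parP_eq]
    apply Finset.prod_congr _ fun _ _ => rfl
    ext i
    rw [Finset.mem_filter, Finset.mem_range, Finset.mem_range]
    have := j.2
    omega
  · intro j
    exact hl j _
  · refine ⟨Fintype.card (Leaf I fun i : Fin I => parS I b l i) / (8 * (b + 1)), ?_, ?_⟩
    · refine le_trans ?_ (Nat.mul_div_le
        (Fintype.card (Leaf I fun i : Fin I => parS I b l i)) (8 * (b + 1)))
      exact Nat.mul_le_mul_right _ (by omega)
    · intro T hT
      rw [Nat.le_div_iff_mul_le (by omega)]
      have key : ∀ j : Fin I, I * (8 * (b + 1) *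
          ((parP I b l j * I ^ 2) *
            (cols (s := fun i : Fin I => parS I b l i) j (T j)).card)) ≤
          Fintype.card (Leaf I fun i : Fin I => parS I b l i) := by
        intro j
        have h1 := card_cols I (fun i => parS I b l i) j (T j)
        refine params_arith (l := l j (parP I b l j)) (S := parS I b l j) ?_ (Nat.le_succ _)
          (hpos j)
        rw [h1]
        exact Nat.mul_le_mul_right _ (hT j)
      have hsum := Finset.sum_le_card_nsmul Finset.univ
        (fun j : Fin I => I * (8 * (b + 1) *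
          ((parP I b l j * I ^ 2) *
            (cols (s := fun i : Fin I => parS I b l i) j (T j)).card))) _ (fun j _ => key j)
      rw [← Finset.mul_sum, ← Finset.mul_sum, Finset.card_univ, Fintype.card_fin,
        smul_eq_mul] at hsum
      have := Nat.le_of_mul_le_mul_left hsum hI
      rw [Nat.mul_comm]
      exact this

end Vale.Agent.P126.Dis
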