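import Vale.Agent.P126.Dis.ChooseT
import Vale.Agent.P126.Dis.Greedy
import Vale.Agent.P126.Dis.Net
import Vale.Agent.P126.Dis.Params
import Vale.Agent.P126.Dis.Bodies

/-! Module G: final assembly. -/

open scoped Pointwise RealInnerProductSpace

namespace Vale.Agent.P126.Dis

open Vale.Agent.P126

/-- The matrix. -/
noncomputable def F (I : ℕ) (s : Fin I → ℕ) (Q : ℕ) (t : Row I s (Fin Q))
    (z : Leaf I s → Fin Q) : ℝ := (G (agr z t.1) t.2 : ℝ) / I

lemma F_nonneg {I : ℕ} {s : Fin I → ℕ} {Q : ℕ} (t : Row I s (Fin Q)) (z : Leaf I s → Fin Q) :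
    0 ≤ F I s Q t z := by unfold F; positivity

lemma F_le_one {I : ℕ} {s : Fin I → ℕ} {Q : ℕ} (hI : 0 < I) (t : Row I s (Fin Q))
    (z : Leaf I s → Fin Q) : F I s Q t z ≤ 1 := by
  unfold F
  have : (0 : ℝ) < I := by exact_mod_cast hI
  rw [div_le_one this]
  exact_mod_cast G_le _ _

/-- The combinatorial heart: the rows' convex hull is small in the sup norm. -/
lemma exists_matrix (I b : ℕ) (hI : 0 < I) :
    ∃ s : Fin I → ℕ, (∀ i, 0 < s i) ∧ ∃ C D : ℕ, 0 < C ∧
      8 * b * D ≤ Fintype.card (Leaf I s) ∧ ∀ Q : ℕ, 0 < Q →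
        ∃ S : Finset ((Leaf I s → Fin Q) → ℝ), S.card ≤ C * Q ^ D ∧
          ∀ w : Row I s (Fin Q) → ℝ, (∀ t, 0 ≤ w t) → ∑ t, w t ≤ 1 →
            ∃ f ∈ S, ∀ z, |∑ t, w t * F I s Q t z - f z| ≤ 4 / I := by
  classical
  have hI' : (0 : ℝ) < I := by exact_mod_cast hI
  obtain ⟨s, hs, N, l, hN, hl, D, hD, hD2⟩ := exists_params I b hI
  obtain ⟨C, hC, hnet⟩ := exists_net I s (fun j => N j * I ^ 2) l D hD2
  refine ⟨s, hs, C, D, hC, hD, fun Q hQ => ?_⟩
  obtain ⟨S, hS, hS2⟩ := hnet Q hQ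
  refine ⟨S.image fun f z => f z / I, Finset.card_image_le.trans hS, fun w hw hw1 => ?_⟩
  have hT : ∀ j : Fin I, ∃ T : Finset (Fin (s j)), T.card ≤ l j ∧
      (∑ t with ¬ Works j T t.2, w t) ≤ 1 / (2 * (I : ℝ) ^ 2) := by
    intro j
    obtain ⟨T, hT1, hT2⟩ := exists_T hs j (N j) (l j) (hN j) _ (hl j) w hw hw1
      (fun t : Row I s (Fin Q) => t.2)
    exact ⟨T, hT1, by convert hT2⟩
  choose T hT1 hT2 using hT
  obtain ⟨R, hR, hR2⟩ := exists_records hI T w hw hw1 (fun j _ => by convert hT2 j) N hN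
  obtain ⟨f, hf, hf2⟩ := hS2 w hw hw1 T hT1 R hR
  refine ⟨fun z => f z / I, Finset.mem_image.2 ⟨f, hf, rfl⟩, fun z => ?_⟩
  have h1 := hR2 z
  have h2 := hf2 z
  have h3 : 0 ≤ ∑ t, w t * ((G (agr z t.1) t.2 : ℝ) -
        (G (agr z t.1 ∩ expl T R t.1) t.2 : ℝ)) := by
    refine Finset.sum_nonneg fun t _ => mul_nonneg (hw t) ?_
    have : G (agr z t.1 ∩ expl T R t.1) t.2 ≤ G (agr z t.1) t.2 :=
      G_mono Finset.inter_subset_left _
    have h4 : (G (agr z t.1 ∩ expl T R t.1) t.2 : ℝ) ≤ (G (agr z t.1) t.2 : ℝ) := by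
      exact_mod_cast this
    linarith
  have h4 : ∑ t, w t * F I s Q t z = (∑ t, w t * (G (agr z t.1) t.2 : ℝ)) / I := by
    rw [Finset.sum_div]
    exact Finset.sum_congr rfl fun t _ => by unfold F; ring
  have h5 : ∑ t, w t * ((G (agr z t.1) t.2 : ℝ) - (G (agr z t.1 ∩ expl T R t.1) t.2 : ℝ)) =
      ∑ t, w t * (G (agr z t.1) t.2 : ℝ) -
        ∑ t, w t * (G (agr z t.1 ∩ expl T R t.1) t.2 : ℝ) := by
    rw [← Finset.sum_sub_distrib]
    exact Finset.sum_congr rfl fun t _ => by ring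
  rw [h5] at h1 h3
  rw [h4, ← sub_div, abs_div, abs_of_pos hI', div_le_div_iff_of_pos_right hI']
  rw [abs_le] at h2 ⊢
  constructor <;> linarith [h2.1, h2.2]

/-- The numerical comparison as `Q → ∞`. -/
lemma exists_Q (M D C b : ℕ) (hM : 0 < M) (hD : 8 * b * D ≤ M) (hC : 0 < C) :
    ∃ Q : ℕ, 0 < Q ∧ ∀ N N' : ℕ, Q ^ M ≤ N * (2 ^ M * Q ^ (M / 2)) → N' ≤ (C * Q ^ D) ^ 2 →
      (b : ℝ) * Real.log N' < Real.log N := by
  -- `log Q > (8 b log C + 4 M log 2) / M`
  obtain ⟨Q, hQ⟩ := exists_nat_gt (Real.exp ((8 * b * Real.log C + 4 * M * Real.log 2) / M + 1))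
  have hM' : (0 : ℝ) < M := by exact_mod_cast hM
  have hC1 : (1 : ℝ) ≤ C := by exact_mod_cast hC
  have hC0 : 0 ≤ Real.log C := Real.log_nonneg hC1
  have hb0 : (0 : ℝ) ≤ b := Nat.cast_nonneg _
  have hQ0 : (0 : ℝ) < Q := lt_trans (Real.exp_pos _) hQ
  have hQn : 0 < Q := by exact_mod_cast hQ0
  have hlogQ : (8 * b * Real.log C + 4 * M * Real.log 2) / M + 1 < Real.log Q := by
    rw [← Real.log_exp ((8 * b * Real.log C + 4 * M * Real.log 2) / M + 1)]
    exact Real.log_lt_log (Real.exp_pos _) hQ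
  have hl2 : 0 < Real.log 2 := Real.log_pos (by norm_num)
  have hlogQ0 : 0 < Real.log Q := by
    refine lt_trans ?_ hlogQ
    positivity
  have hlogQ' : 8 * b * Real.log C + 4 * M * Real.log 2 < M * Real.log Q := by
    have h1 : (8 * b * Real.log C + 4 * M * Real.log 2) / M < Real.log Q := by linarith
    rw [div_lt_iff₀ hM'] at h1
    linarith
  refine ⟨Q, hQn, fun N N' h h' => ?_⟩
  have hN : 0 < N := by
    rcases Nat.eq_zero_or_pos N with rfl | h0
    · rw [zero_mul] at h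
      exact absurd (pow_pos hQn M) (by omega)
    · exact h0
  have hN' : (0 : ℝ) < N := by exact_mod_cast hN
  have h1 : (M : ℝ) * Real.log Q ≤ Real.log N + (M * Real.log 2 + (M / 2 : ℕ) * Real.log Q) := by
    have h2 : ((Q : ℝ)) ^ M ≤ N * (2 ^ M * (Q : ℝ) ^ (M / 2)) := by exact_mod_cast h
    have h3 := Real.log_le_log (by positivity) h2
    rwa [Real.log_mul (by positivity) (by positivity), Real.log_mul (by positivity) (by positivity),
      Real.log_pow, Real.log_pow, Real.log_pow] at h3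
  have h2 : (((M / 2 : ℕ) : ℝ)) ≤ M / 2 := Nat.cast_div_le
  have h3 : (M : ℝ) / 2 * Real.log Q - M * Real.log 2 ≤ Real.log N := by
    have := mul_le_mul_of_nonneg_right h2 hlogQ0.le
    nlinarith
  have h4 : Real.log N' ≤ 2 * (Real.log C + D * Real.log Q) := by
    rcases Nat.eq_zero_or_pos N' with rfl | h0
    · simp only [Nat.cast_zero, Real.log_zero]
      positivity
    · have h5 : (N' : ℝ) ≤ ((C : ℝ) * (Q : ℝ) ^ D) ^ 2 := by exact_mod_cast h'
      have h6 := Real.log_le_log (by exact_mod_cast h0) h5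
      rw [Real.log_pow, Real.log_mul (by positivity) (by positivity), Real.log_pow] at h6
      exact_mod_cast h6
  have h5 : (b : ℝ) * Real.log N' ≤ b * (2 * (Real.log C + D * Real.log Q)) :=
    mul_le_mul_of_nonneg_left h4 hb0
  have h6 : 8 * (b : ℝ) * D ≤ M := by exact_mod_cast hD
  have h7 : 8 * (b : ℝ) * D * Real.log Q ≤ M * Real.log Q :=
    mul_le_mul_of_nonneg_right h6 hlogQ0.le
  nlinarith

/-- The right hand inequality of the duality conjecture fails for all `a, b`. -/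
theorem duality_fails (a b : ℝ) (ha : 1 ≤ a) :
    ∃ n : ℕ, 1 ≤ n ∧ ∃ K L : Set (EuclideanSpace ℝ (Fin n)), IsSymBody K ∧ IsSymBody L ∧
      b * Real.log (coverNum (polarBody L) (a⁻¹ • polarBody K)) < Real.log (coverNum K L) := by
  classical
  have ha0 : 0 < a := by linarith
  obtain ⟨I, hIa⟩ := exists_nat_ge (48 * a)
  have hI' : (0 : ℝ) < I := by linarith
  have hI : 0 < I := by exact_mod_cast hI'
  obtain ⟨B, hB⟩ := exists_nat_ge b
  obtain ⟨s, hs, C, D, hC, hD, hmat⟩ := exists_matrix I B hI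
  have hM : 0 < Fintype.card (Leaf I s) := by
    rw [Fintype.card_pi]
    exact Finset.prod_pos fun i _ => by simpa using hs i
  obtain ⟨Q, hQ, hfin⟩ := exists_Q (Fintype.card (Leaf I s)) D C B hM hD hC
  obtain ⟨S, hS, hS2⟩ := hmat Q hQ
  have : Nonempty (Fin Q) := ⟨⟨0, hQ⟩⟩
  obtain ⟨K, L, hK, hL, h1, h2⟩ := exists_bodies (F I s Q)
    (fun t z => by
      rw [abs_of_nonneg (F_nonneg t z)]
      exact F_le_one hI t z) a ha S
    (2 ^ Fintype.card (Leaf I s) * Q ^ (Fintype.card (Leaf I s) / 2))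
    (fun w hw hw1 => by
      obtain ⟨f, hf, hf2⟩ := hS2 w hw hw1
      refine ⟨f, hf, fun z => (hf2 z).trans ?_⟩
      rw [div_le_div_iff₀ hI' (by positivity)]
      linarith)
    (fun z => by
      refine le_trans (Finset.card_le_card ?_) (count_agr z)
      intro z' hz'
      rw [Finset.mem_filter] at hz' ⊢
      refine ⟨Finset.mem_univ _, ?_⟩
      by_contra hcon
      obtain ⟨t, ht1, ht2⟩ := sep hI hs z z' (not_lt.1 hcon)
      have := hz'.2 t
      unfold F at this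
      rw [ht1, ht2] at this
      simp only [Nat.cast_zero, zero_div, zero_sub, abs_neg] at this
      rw [div_self hI'.ne', abs_one] at this
      exact lt_irrefl _ this)
  refine ⟨Fintype.card (Row I s (Fin Q)), Fintype.card_pos, K, L, hK, hL, ?_⟩
  rw [Fintype.card_fun, Fintype.card_fin] at h1
  have h3 := hfin _ _ h1 (h2.trans (Nat.pow_le_pow_left hS 2))
  have h4 : b * Real.log (coverNum (polarBody L) (a⁻¹ • polarBody K)) ≤
      B * Real.log (coverNum (polarBody L) (a⁻¹ • polarBody K)) :=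
    mul_le_mul_of_nonneg_right hB (Real.log_natCast_nonneg _)
  linarith

end Vale.Agent.P126.Dis
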