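import Vale.Agent.P126.Dis.Final
import Vale.Agent.P126.NearLinear

/-! Module H: the left hand inequality of the duality conjecture fails as well. -/

open scoped Pointwise RealInnerProductSpace

namespace Vale.Agent.P126.Dis

open Vale.Agent.P126

lemma coverNum_le_smul {n : ℕ} {K L : Set (EuclideanSpace ℝ (Fin n))} (hK : IsSymBody K)
    (hL : IsSymBody L) {a : ℝ} (ha : 0 < a) : coverNum K L ≤ coverNum (a • K) (a • L) := by
  have h := coverNum_smul_le (hK.smul ha) (hL.smul ha) a⁻¹
  rwa [smul_smul, smul_smul, inv_mul_cancel₀ ha.ne', one_smul, one_smul] at h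

/-- The left hand inequality of the duality conjecture fails for all `a, b`. -/
theorem duality_fails_left (a b : ℝ) (ha : 1 ≤ a) :
    ∃ n : ℕ, 1 ≤ n ∧ ∃ K L : Set (EuclideanSpace ℝ (Fin n)), IsSymBody K ∧ IsSymBody L ∧
      b * Real.log (coverNum K L) < Real.log (coverNum (polarBody L) (a • polarBody K)) := by
  have ha0 : 0 < a := by linarith
  obtain ⟨n, hn, K, L, hK, hL, h⟩ := duality_fails a b ha
  refine ⟨n, hn, polarBody L, a⁻¹ • polarBody K, hL.polar, hK.polar.smul (inv_pos.2 ha0), ?_⟩
  rw [polarBody_smul (inv_pos.2 ha0), inv_inv,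
    polarBody_polarBody hK.convex hK.compact.isClosed hK.zero_mem,
    polarBody_polarBody hL.convex hL.compact.isClosed hL.zero_mem]
  exact lt_of_lt_of_le h (log_cast_mono (coverNum_le_smul hK hL ha0))

end Vale.Agent.P126.Dis
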