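import Vale.Agent.P126.Dis.Defs

/-! Module A: basic facts on `G`, separation, and the size of agreement classes. -/

namespace Vale.Agent.P126.Dis

variable {I : ℕ} {s : Fin I → ℕ}

lemma G_le (E W : Finset (Leaf I s)) : G E W ≤ I := by
  classical
  unfold G
  refine Finset.sup_le fun j _ => ?_
  split_ifs <;> omega

lemma le_G {E W : Finset (Leaf I s)} {j : ℕ} (hj : j < I) (h : Hit E W j) : I - j ≤ G E W := by
  classical
  have h1 := Finset.le_sup (f := fun j => if Hit E W j then I - j else 0) (Finset.mem_range.2 hj)
  have h2 : (if Hit E W j then I - j else 0) ≤ G E W := h1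
  rwa [if_pos h] at h2

/-- If `G` is positive, it is attained at a smallest level `j`. -/
lemma exists_level {E W : Finset (Leaf I s)} (h : 0 < G E W) :
    ∃ j < I, Hit E W j ∧ G E W = I - j := by
  classical
  have hI : 0 < I := lt_of_lt_of_le h (G_le E W)
  obtain ⟨j, hj, he⟩ := Finset.exists_mem_eq_sup (Finset.range I) ⟨0, Finset.mem_range.2 hI⟩
    (fun j => if Hit E W j then I - j else 0)
  have he' : G E W = if Hit E W j then I - j else 0 := he
  by_cases hv : Hit E W j
  · rw [if_pos hv] at he'
    exact ⟨j, Finset.mem_range.1 hj, hv, he'⟩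
  · rw [if_neg hv] at he'
    omega

lemma G_mono {E E' : Finset (Leaf I s)} (h : E ⊆ E') (W : Finset (Leaf I s)) :
    G E W ≤ G E' W := by
  rcases Nat.eq_zero_or_pos (G E W) with h0 | h0
  · omega
  · obtain ⟨j, hj, ⟨m, hm1, hm2⟩, he⟩ := exists_level h0
    rw [he]
    exact le_G hj ⟨m, hm1.trans h, hm2⟩

/-- Separation of columns which agree on at most half of the coordinates. -/
lemma sep {X : Type} [DecidableEq X] (hI : 0 < I) (hs : ∀ i, 0 < s i) (z z' : Leaf I s → X)
    (h : 2 * (agr z z').card ≤ Fintype.card (Leaf I s)) :
    ∃ t : Row I s X, G (agr z' t.1) t.2 = I ∧ G (agr z t.1) t.2 = 0 := by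
  classical
  set W : Finset (Leaf I s) := Finset.univ.filter fun m => ¬ z m = z' m with hW
  refine ⟨(z', W), ?_, ?_⟩
  · refine le_antisymm (G_le _ _) ?_
    let m : Leaf I s := fun i => ⟨0, hs i⟩
    have hcyl : cyl 0 m = Finset.univ := by
      ext m'
      simp [cyl]
    have hagr : agr z' z' = Finset.univ := by
      ext m'
      simp [agr]
    have hcard : (agr z z').card + W.card = Fintype.card (Leaf I s) := by
      have := Finset.card_filter_add_card_filter_not (s := (Finset.univ : Finset (Leaf I s)))
        (fun m => z m = z' m)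
      rw [Finset.card_univ] at this
      exact this
    have hhit : Hit (agr z' z') W 0 := by
      refine ⟨m, by rw [hagr]; exact Finset.subset_univ _, ?_⟩
      unfold Dns
      rw [hcyl, Finset.inter_univ, Finset.card_univ]
      have h1 : (Fintype.card (Leaf I s) : ℝ) ≤ 2 * (W.card : ℝ) := by
        have : Fintype.card (Leaf I s) ≤ 2 * W.card := by omega
        exact_mod_cast this
      have h2 : theta 0 = 1 / 2 := by unfold theta; norm_num
      rw [h2]
      linarith
    have := le_G hI hhit
    simpa using this
  · by_contra hne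
    obtain ⟨j, hj, ⟨m, hm1, hm2⟩, -⟩ := exists_level (Nat.pos_of_ne_zero hne)
    have hempty : W ∩ cyl j m = ∅ := by
      ext m'
      simp only [Finset.mem_inter, Finset.notMem_empty, iff_false, not_and]
      intro h1 h2
      have h3 := hm1 h2
      rw [hW, Finset.mem_filter] at h1
      have h4 : z m' = z' m' := by simpa [agr] using h3
      exact h1.2 h4
    have hpos : 0 < (cyl j m).card := Finset.card_pos.2 ⟨m, by simp [cyl]⟩
    unfold Dns at hm2
    rw [hempty, Finset.card_empty] at hm2
    have hth : 0 < theta j := by unfold theta; positivity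
    have : (0 : ℝ) < theta j * ((cyl j m).card : ℝ) := mul_pos hth (by exact_mod_cast hpos)
    push_cast at hm2
    linarith

/-- Few columns agree with `z` on more than half of the coordinates. -/
lemma count_agr {Q : ℕ} (z : Leaf I s → Fin Q) :
    (Finset.univ.filter fun x : Leaf I s → Fin Q =>
      Fintype.card (Leaf I s) < 2 * (agr z x).card).card ≤
      2 ^ Fintype.card (Leaf I s) * Q ^ (Fintype.card (Leaf I s) / 2) := by
  classical
  set M := Fintype.card (Leaf I s) with hM
  rcases Finset.eq_empty_or_nonempty (Finset.univ.filter fun x : Leaf I s → Fin Q =>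
      M < 2 * (agr z x).card) with he | ⟨x0, hx0⟩
  · rw [he, Finset.card_empty]
    exact Nat.zero_le _
  · have hM0 : 0 < M := by
      rcases Nat.eq_zero_or_pos M with h0 | h0
      · exfalso
        rw [Finset.mem_filter] at hx0
        have h1 : (agr z x0).card ≤ M := by rw [hM, ← Finset.card_univ]; exact Finset.card_le_univ _
        omega
      · exact h0
    obtain ⟨m0⟩ : Nonempty (Leaf I s) := Fintype.card_pos_iff.1 hM0
    have hQ : 0 < Q := lt_of_le_of_lt (Nat.zero_le _) (z m0).2
    have hsub : (Finset.univ.filter fun x : Leaf I s → Fin Q => M < 2 * (agr z x).card) ⊆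
        ((Finset.univ : Finset (Leaf I s)).powerset.filter fun A => M < 2 * A.card).biUnion
          fun A => Finset.univ.filter fun x : Leaf I s → Fin Q => ∀ m ∈ A, x m = z m := by
      intro x hx
      rw [Finset.mem_filter] at hx
      rw [Finset.mem_biUnion]
      refine ⟨agr z x, ?_, ?_⟩
      · rw [Finset.mem_filter]
        exact ⟨Finset.mem_powerset.2 (Finset.subset_univ _), hx.2⟩
      · rw [Finset.mem_filter]
        refine ⟨Finset.mem_univ _, fun m hm => ?_⟩
        have : z m = x m := by simpa [agr] using hm
        exact this.symm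
    have hA : ∀ A ∈ ((Finset.univ : Finset (Leaf I s)).powerset.filter fun A => M < 2 * A.card),
        (Finset.univ.filter fun x : Leaf I s → Fin Q => ∀ m ∈ A, x m = z m).card ≤
          Q ^ (M / 2) := by
      intro A hA
      rw [Finset.mem_filter] at hA
      have e : (Finset.univ.filter fun x : Leaf I s → Fin Q => ∀ m ∈ A, x m = z m) =
          Fintype.piFinset fun m => if m ∈ A then ({z m} : Finset (Fin Q)) else Finset.univ := by
        ext x
        simp only [Finset.mem_filter, Finset.mem_univ, true_and, Fintype.mem_piFinset]
        refine forall_congr' fun m => ?_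
        by_cases hm : m ∈ A
        · simp [hm]
        · simp [hm]
      rw [e, Fintype.card_piFinset]
      have e2 : ∀ m, (if m ∈ A then ({z m} : Finset (Fin Q)) else Finset.univ).card =
          if m ∈ A then 1 else Q := by
        intro m
        by_cases hm : m ∈ A
        · rw [if_pos hm, if_pos hm, Finset.card_singleton]
        · rw [if_neg hm, if_neg hm, Finset.card_univ, Fintype.card_fin]
      simp only [e2]
      rw [Finset.prod_ite, Finset.prod_const_one, one_mul, Finset.prod_const]
      refine Nat.pow_le_pow_right hQ ?_
      have e3 : (Finset.univ.filter fun m => m ∉ A) = Aᶜ := by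
        ext m; simp
      rw [e3, Finset.card_compl, ← hM]
      omega
    calc (Finset.univ.filter fun x : Leaf I s → Fin Q => M < 2 * (agr z x).card).card
        ≤ _ := Finset.card_le_card hsub
      _ ≤ ((Finset.univ : Finset (Leaf I s)).powerset.filter fun A => M < 2 * A.card).card *
          Q ^ (M / 2) := Finset.card_biUnion_le_card_mul _ _ _ hA
      _ ≤ 2 ^ M * Q ^ (M / 2) := by
          refine Nat.mul_le_mul_right _ ?_
          refine (Finset.card_filter_le _ _).trans ?_
          rw [Finset.card_powerset, Finset.card_univ]

end Vale.Agent.P126.Dis
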